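import Vale.Agent.P225.Decay

namespace Vale.Agent.P225

open Set Filter NormedSpace
open scoped ContDiff Topology

variable {A ι I : Type} [NormedRing A] [NormedAlgebra ℝ A] [CompleteSpace A] [Fintype ι]
  [Fintype I]

namespace BumpAux

theorem exp_mul_neg (Y : A) (t : ℝ) : exp (t • Y) * exp ((-t) • Y) = 1 := by
  let _ : NormedAlgebra ℚ A := .restrictScalars ℚ ℝ A
  rw [← exp_add_of_commute (((Commute.refl Y).smul_left _).smul_right _), ← add_smul,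
    add_neg_cancel, zero_smul, exp_zero]

theorem core (D : Diag A ι I) (K : A) (κ₀ : I → ℝ) {d₀ : ℝ} (hd : 0 < d₀)
    {c r B ε τ a p N : ℝ} {κ : ℝ → I → ℝ} {σ : ℝ → ℝ} {u w : ℝ → A} (hτ : 0 < τ) (hε : 0 ≤ ε)
    (hκ₀ : ∀ l, κ₀ l ≠ 0) (hc : 0 ≤ c) (h1 : ε ≤ 1) (hτε : c / τ ≤ c * ε)
    (hB : ∀ t ∈ Icc (-(2 * c)) (2 * c), ‖exp (t • (D.z κ₀⁻¹ * K))‖ ≤ B)
    (hκ : ContinuousOn κ (Icc a (a + τ))) (hσ : Continuous σ)
    (hs : ∀ s ∈ Icc a (a + τ), HasDerivAt u (w s) s ∧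
        HasDerivAt w (σ s • (K * u s) - D.z (κ s) * w s) s)
    (hb : ∀ s ∈ Icc a (a + τ), (∀ l, d₀ ≤ κ s l ∧ |κ s l - κ₀ l| ≤ ε) ∧ |σ s| ≤ c / τ)
    (hp : |(∫ s in a..(a + τ), σ s) - p| ≤ c / τ) (hu : ‖u a‖ ≤ r) (hw : ‖w a‖ ≤ ε)
    (hN : ∀ s ∈ Icc a (a + τ), ‖u s‖ ≤ N) {b y η ζ om : ℝ} (eb : b = ‖κ₀⁻¹‖)
    (ey : y = ‖D.z κ₀⁻¹ * K * D.z κ₀⁻¹‖) (eη : η = B * (b * ε + c * ε * y))
    (eζ : ζ = η * (ε / d₀ + c * ‖K‖ * N / d₀)) (eom : om = ε + c * ε * ‖K‖ * N / d₀) :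
    (∀ s ∈ Icc a (a + τ), ‖u s‖ ≤ B * (r + b * ε + ζ) + b * om) ∧
      ‖u (a + τ) - exp (p • (D.z κ₀⁻¹ * K)) * u a‖ ≤
        B * ζ + B * (b * ε) + B * ‖D.z κ₀⁻¹ * K‖ * (c * ε) * r + b * om ∧ ‖w (a + τ)‖ ≤ om := by
  set β := D.z κ₀⁻¹ with hβ
  set Y := β * K with hY
  have ha : a ∈ Icc a (a + τ) := ⟨le_rfl, by linarith⟩
  have hb' : a + τ ∈ Icc a (a + τ) := ⟨by linarith, le_rfl⟩
  have hB0 : 0 ≤ B := (norm_nonneg _).trans (hB 0 ⟨by linarith, by linarith⟩)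
  have hN0 : 0 ≤ N := (norm_nonneg _).trans (hN a ha)
  have hb0 : 0 ≤ b := eb ▸ norm_nonneg _
  have hy0 : 0 ≤ y := ey ▸ norm_nonneg _
  have hβb : ‖β‖ ≤ b := eb ▸ D.norm_z _
  have hη0 : 0 ≤ η := by rw [eη]; positivity
  let S : ℝ → ℝ := fun s => ∫ t in a..s, σ t
  have hS : ∀ s ∈ Icc a (a + τ), |S s| ≤ c := by
    intro s h
    have := intervalIntegral.norm_integral_le_of_norm_le_const (a := a) (b := s) (f := σ)
      (C := c / τ) fun t ht => by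
        rw [uIoc_of_le h.1] at ht
        exact (hb t ⟨ht.1.le, ht.2.trans h.2⟩).2
    refine this.trans ?_
    rw [abs_of_nonneg (sub_nonneg.2 h.1), div_mul_eq_mul_div, div_le_iff₀ hτ]
    exact mul_le_mul_of_nonneg_left (by linarith [h.2]) hc
  have hE : ∀ t, |t| ≤ c → ‖exp (t • Y)‖ ≤ B := fun t ht =>
    hB t ⟨by linarith [(abs_le.1 ht).1], by linarith [(abs_le.1 ht).2]⟩
  have hdec := D.decay (w := w) (r := fun s => σ s • (K * u s)) (κ := fun s => κ s ∘ D.blk)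
    (ρ := c / τ * (‖K‖ * N)) (a := a) (b := a + τ)
    (continuousOn_pi.2 fun i => (continuous_apply (D.blk i)).comp_continuousOn hκ)
    (fun s h => (hs s h).2) hd (fun s h i => ((hb s h).1 _).1) fun s h => by
      rw [norm_smul]
      exact mul_le_mul (hb s h).2 ((norm_mul_le _ _).trans
        (mul_le_mul_of_nonneg_left (hN s h) (norm_nonneg _))) (norm_nonneg _) (by positivity)
  have hdec' : ∀ s ∈ Icc a (a + τ), ‖w s‖ ≤
      Real.exp (-(d₀ * (s - a))) * ε + c / τ * (‖K‖ * N) / d₀ := fun s h =>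
    (hdec s h).trans (by gcongr)
  have hom : ∀ s ∈ Icc a (a + τ), ‖w s‖ ≤ om := by
    intro s h
    refine (hdec' s h).trans ?_
    rw [eom]
    refine add_le_add (mul_le_of_le_one_left hε (Real.exp_le_one_iff.2 ?_)) ?_
    · have := mul_nonneg hd.le (sub_nonneg.2 h.1)
      linarith
    · rw [mul_assoc (c * ε)]
      gcongr
  let Z : ℝ → A := fun s => exp ((-S s) • Y) * (u s + β * w s)
  have hZ : ∀ s ∈ Icc a (a + τ), HasDerivAt (fun s => Z s - Z a)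
      (exp ((-S s) • Y) * ((D.z (κ₀⁻¹ * (κ₀ - κ s)) - σ s • (Y * β)) * w s)) s := by
    intro s h
    have e1 : D.z (κ₀⁻¹ * (κ₀ - κ s)) = 1 - β * D.z (κ s) := by
      rw [hβ, ← D.z_mul, Diag.z, Diag.z, ← map_one D.dg, ← map_sub]
      congr 1
      funext i
      simp [mul_sub, hκ₀]
    have h1 := (hasDerivAt_exp_smul_const (𝕂 := ℝ) Y (-S s)).scomp s
      (hσ.integral_hasStrictDerivAt a s).hasDerivAt.neg
    refine ((h1.mul ((hs s h).1.add ((hs s h).2.const_mul β))).sub_const (Z a)).congr_deriv ?_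
    rw [e1]
    simp only [hY, Function.comp_apply, Pi.add_apply, Pi.neg_apply, S, mul_add, mul_sub,
      sub_mul, neg_smul, smul_mul_assoc, mul_smul_comm, neg_mul, mul_assoc, one_mul]
    abel
  have hZb := image_norm_le_of_norm_deriv_right_le_deriv_boundary
    (fun t ht => (hZ t ht).continuousAt.continuousWithinAt)
    (fun t ht => (hZ t (Ico_subset_Icc_self ht)).hasDerivWithinAt)
    (B := fun t => η * (ε / d₀ * (1 - Real.exp (-(d₀ * (t - a)))) +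
      c / τ * (‖K‖ * N) / d₀ * (t - a)))
    (B' := fun t => η * (Real.exp (-(d₀ * (t - a))) * ε + c / τ * (‖K‖ * N) / d₀))
    (by simp) (fun t => by
      refine (((((((hasDerivAt_id t).sub_const a).const_mul d₀).neg.exp.const_sub 1).const_mul
        (ε / d₀)).add (((hasDerivAt_id t).sub_const a).const_mul
          (c / τ * (‖K‖ * N) / d₀))).const_mul η).congr_deriv ?_
      simp only [id, Pi.neg_apply]
      field_simp) fun t ht => by
      have ht' := Ico_subset_Icc_self ht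
      have h2 : ‖D.z (κ₀⁻¹ * (κ₀ - κ t)) - σ t • (Y * β)‖ ≤ b * ε + c * ε * y := by
        refine (norm_sub_le _ _).trans (add_le_add ((D.norm_z _).trans ((norm_mul_le _ _).trans
          (mul_le_mul eb.ge ((pi_norm_le_iff_of_nonneg hε).2 fun l => ?_) (norm_nonneg _) hb0))) ?_)
        · rw [Pi.sub_apply, Real.norm_eq_abs, abs_sub_comm]
          exact ((hb t ht').1 l).2
        · rw [norm_smul, ← ey]
          exact mul_le_mul_of_nonneg_right ((hb t ht').2.trans hτε) hy0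
      rw [eη, mul_assoc B]
      exact (norm_mul_le _ _).trans (mul_le_mul (hE _ (by rw [abs_neg]; exact hS t ht'))
        ((norm_mul_le _ _).trans (mul_le_mul h2 (hdec' t ht') (norm_nonneg _) (by positivity)))
        (norm_nonneg _) hB0)
  have hζ : ∀ s ∈ Icc a (a + τ), ‖Z s - Z a‖ ≤ ζ := by
    intro s h
    refine (hZb h).trans ?_
    rw [eζ]
    refine mul_le_mul_of_nonneg_left (add_le_add (mul_le_of_le_one_right (by positivity)
      (by linarith [Real.exp_pos (-(d₀ * (s - a)))])) ?_) hη0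
    calc _ ≤ c / τ * (‖K‖ * N) / d₀ * τ := by gcongr; linarith [h.2]
      _ = _ := by field_simp
  have hZa : Z a = u a + β * w a := by simp [Z, S]
  have hβw : ‖β * w a‖ ≤ b * ε :=
    (norm_mul_le _ _).trans (mul_le_mul hβb hw (norm_nonneg _) hb0)
  have hβs : ∀ s ∈ Icc a (a + τ), ‖β * w s‖ ≤ b * om := fun s h =>
    (norm_mul_le _ _).trans (mul_le_mul hβb (hom s h) (norm_nonneg _) hb0)
  have hus : ∀ s, u s = exp (S s • Y) * ((Z s - Z a) + Z a) - β * w s := fun s => by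
    rw [sub_add_cancel, ← mul_assoc, exp_mul_neg, one_mul, add_sub_cancel_right]
  refine ⟨fun s h => ?_, ?_, hom _ hb'⟩
  · rw [hus s]
    refine (norm_sub_le _ _).trans (add_le_add ((norm_mul_le _ _).trans
      (mul_le_mul (hE _ (hS s h)) ((norm_add_le _ _).trans ?_) (norm_nonneg _) hB0)) (hβs s h))
    rw [hZa]
    linarith [hζ s h, norm_add_le (u a) (β * w a), hZa ▸ hζ s h]
  · have hcε : c * ε ≤ c := mul_le_of_le_one_right hc h1
    have hp' : |S (a + τ) - p| ≤ c * ε := hp.trans hτε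
    have h3 := abs_le.1 hp'
    have h4 := abs_le.1 (hS _ hb')
    have h5 := (convex_Icc (-(2 * c)) (2 * c)).norm_image_sub_le_of_norm_hasDerivWithin_le
      (f := fun t : ℝ => exp (t • Y)) (C := B * ‖Y‖)
      (fun t _ => (hasDerivAt_exp_smul_const (𝕂 := ℝ) Y t).hasDerivWithinAt)
      (fun t ht => (norm_mul_le _ _).trans (mul_le_mul_of_nonneg_right (hB t ht) (norm_nonneg _)))
      (x := p) (y := S (a + τ)) ⟨by linarith, by linarith⟩ ⟨by linarith, by linarith⟩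
    have e : u (a + τ) - exp (p • Y) * u a = exp (S (a + τ) • Y) * (Z (a + τ) - Z a) +
        exp (S (a + τ) • Y) * (β * w a) + (exp (S (a + τ) • Y) - exp (p • Y)) * u a -
          β * w (a + τ) := by
      conv_lhs => rw [hus (a + τ)]
      rw [mul_add, hZa, mul_add, sub_mul]
      abel
    rw [e]
    refine (norm_sub_le _ _).trans (add_le_add (norm_add₃_le.trans (add_le_add_three ?_ ?_ ?_))
      (hβs _ hb'))
    · exact (norm_mul_le _ _).trans (mul_le_mul (hE _ (hS _ hb')) (hζ _ hb') (norm_nonneg _) hB0)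
    · exact (norm_mul_le _ _).trans (mul_le_mul (hE _ (hS _ hb')) hβw (norm_nonneg _) hB0)
    · exact (norm_mul_le _ _).trans (mul_le_mul (h5.trans (mul_le_mul_of_nonneg_left hp'
        (by positivity))) hu (norm_nonneg _) (by positivity))

end BumpAux

open BumpAux

theorem bump_one (D : Diag A ι I) (K : A) (κ₀ : I → ℝ) {d₀ : ℝ} (hd : 0 < d₀)
    (hκ₀ : ∀ l, κ₀ l ≠ 0) (C R : ℝ) {δ : ℝ} (hδ : 0 < δ) :
    ∃ ε > 0, ∃ τ₀ > 0, ∀ τ ≥ τ₀, ∀ (a p : ℝ) (κ : ℝ → I → ℝ) (σ : ℝ → ℝ) (u w : ℝ → A),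
      ContinuousOn κ (Icc a (a + τ)) → Continuous σ →
      (∀ s ∈ Icc a (a + τ), HasDerivAt u (w s) s ∧
        HasDerivAt w (σ s • (K * u s) - D.z (κ s) * w s) s) →
      (∀ s ∈ Icc a (a + τ), (∀ l, d₀ ≤ κ s l ∧ |κ s l - κ₀ l| ≤ ε) ∧ |σ s| ≤ C / τ) →
      |(∫ s in a..(a + τ), σ s) - p| ≤ C / τ → ‖u a‖ ≤ R → ‖w a‖ ≤ ε →
      ‖u (a + τ) - exp (p • (D.z κ₀⁻¹ * K)) * u a‖ ≤ δ ∧ ‖w (a + τ)‖ ≤ δ := by
  obtain ⟨B, hB⟩ := (isCompact_Icc (a := -(2 * |C|)) (b := 2 * |C|)).exists_bound_of_continuousOn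
    (f := fun t : ℝ => exp (t • (D.z κ₀⁻¹ * K)))
    fun t _ => (hasDerivAt_exp_smul_const (𝕂 := ℝ) _ t).continuousAt.continuousWithinAt
  have hc := abs_nonneg C
  have hB0 : 0 ≤ B := (norm_nonneg _).trans (hB 0 ⟨by linarith, by linarith⟩)
  obtain ⟨b, eb⟩ : ∃ b, b = ‖κ₀⁻¹‖ := ⟨_, rfl⟩
  obtain ⟨y, ey⟩ : ∃ y, y = ‖D.z κ₀⁻¹ * K * D.z κ₀⁻¹‖ := ⟨_, rfl⟩
  have hb0 : 0 ≤ b := eb ▸ norm_nonneg _
  have hy0 : 0 ≤ y := ey ▸ norm_nonneg _
  let η : ℝ → ℝ := fun ε => B * (b * ε + |C| * ε * y)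
  let N0 : ℝ → ℝ := fun ε => 2 * (B * (|R| + b * ε + η ε * (ε / d₀)) + b * ε)
  let G : ℝ → ℝ := fun ε => ε + |C| * ε * ‖K‖ * N0 ε / d₀
  have ev : ∀ f : ℝ → ℝ, Continuous f → f 0 = 0 → ∀ x > 0, ∀ᶠ ε in 𝓝[>] 0, f ε < x :=
    fun f hf h0 x hx => nhdsWithin_le_nhds (hf.continuousAt.eventually (gt_mem_nhds (h0.trans_lt hx)))
  obtain ⟨ε, hε, h1, h2, h3, h4⟩ := (Eventually.and (self_mem_nhdsWithin (s := Ioi (0 : ℝ)))
    ((ev id continuous_id rfl 1 one_pos).and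
    ((ev (fun ε => B * η ε * |C| * ‖K‖ / d₀ + b * (|C| * ε * ‖K‖) / d₀) (by fun_prop)
      (by simp [η]) (1 / 2) one_half_pos).and
    ((ev (fun ε => B * (η ε * (ε / d₀ + |C| * ‖K‖ * N0 ε / d₀)) + B * (b * ε) +
      B * ‖D.z κ₀⁻¹ * K‖ * (|C| * ε) * |R| + b * G ε) (by fun_prop) (by simp [η, G]) δ hδ).and
    (ev G (by fun_prop) (by simp [G]) δ hδ))))).exists
  have hε : 0 < ε := hε
  refine ⟨ε, hε, ε⁻¹, inv_pos.2 hε, fun τ hτ a p κ σ u w hκ hσ hs hb hp hu hw => ?_⟩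
  have hτ0 : 0 < τ := (inv_pos.2 hε).trans_le hτ
  have hC : C / τ ≤ |C| / τ := by gcongr; exact le_abs_self C
  obtain ⟨t, ht, hm⟩ := isCompact_Icc.exists_isMaxOn (f := fun s => ‖u s‖)
    (nonempty_Icc.2 (le_add_of_nonneg_right hτ0.le))
    fun s h => (hs s h).1.continuousAt.norm.continuousWithinAt
  obtain ⟨k1, k2, k3⟩ := core D K κ₀ hd (N := ‖u t‖) hτ0 hε.le hκ₀ hc h1.le
    (by rw [div_eq_mul_inv]; exact mul_le_mul_of_nonneg_left (inv_le_of_inv_le₀ hε hτ) hc) hB hκ hσ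
    hs (fun s h => ⟨(hb s h).1, (hb s h).2.trans hC⟩) (hp.trans hC) (hu.trans (le_abs_self R)) hw
    hm eb ey rfl rfl rfl
  have hη : 0 ≤ η ε := by positivity
  have hN : ‖u t‖ ≤ N0 ε := by
    have h5 := k1 t ht
    have h6 := mul_le_mul_of_nonneg_right h2.le (norm_nonneg (u t))
    have e : B * (|R| + b * ε + η ε * (ε / d₀ + |C| * ‖K‖ * ‖u t‖ / d₀)) +
        b * (ε + |C| * ε * ‖K‖ * ‖u t‖ / d₀) = N0 ε / 2 +
          (B * η ε * |C| * ‖K‖ / d₀ + b * (|C| * ε * ‖K‖) / d₀) * ‖u t‖ := by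
      simp only [N0]; ring
    have h7 := h5.trans_eq e
    linarith
  refine ⟨k2.trans (le_trans ?_ h3.le), k3.trans (le_trans ?_ h4.le)⟩
  · simp only [G, η]
    gcongr
  · simp only [G]
    gcongr

end Vale.Agent.P225
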