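import Vale.Agent.P225.Bump

namespace Vale.Agent.P225

open Set Filter NormedSpace
open scoped ContDiff Topology

variable {A ι I : Type} [NormedRing A] [NormedAlgebra ℝ A] [CompleteSpace A] [Fintype ι]
  [Fintype I]

namespace BumpMAux

theorem exp_bd (Y : A) (S : ℝ) : ∃ B > 0, ∀ t : ℝ, |t| ≤ S → ‖exp (t • Y)‖ ≤ B := by
  obtain ⟨B, hB⟩ := (isCompact_Icc (a := -S) (b := S)).exists_bound_of_continuousOn
    (f := fun t : ℝ => exp (t • Y))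
    fun t _ => (hasDerivAt_exp_smul_const (𝕂 := ℝ) _ t).continuousAt.continuousWithinAt
  exact ⟨|B| + 1, by positivity, fun t ht =>
    (hB t (abs_le.1 ht)).trans (by linarith [le_abs_self B])⟩

theorem word_bd (Y : ℕ → A) (S : ℝ) (M : ℕ) :
    ∃ R, ∀ p : ℕ → ℝ, (∀ i, |p i| ≤ S) → ‖wordP Y p M‖ ≤ R := by
  induction M with
  | zero => exact ⟨_, fun _ _ => le_refl ‖(1 : A)‖⟩
  | succ M ih =>
    obtain ⟨R, hR⟩ := ih
    obtain ⟨B, hB0, hB⟩ := exp_bd (Y M) S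
    exact ⟨B * R, fun p hp => (norm_mul_le _ _).trans
      (mul_le_mul (hB _ (hp M)) (hR p hp) (norm_nonneg _) hB0.le)⟩

end BumpMAux

open BumpMAux

theorem bump_all (D : Diag A ι I) (K : ℕ → A) (κ₀ : I → ℝ) {d₀ : ℝ} (hd : 0 < d₀)
    (hκ₀ : ∀ l, κ₀ l ≠ 0) (C S : ℝ) (M : ℕ) {δ : ℝ} (hδ : 0 < δ) :
    ∃ ε > 0, ∃ τ₀ > 0, ∀ τ ≥ τ₀, ∀ (a : ℝ) (p : ℕ → ℝ) (κ : ℝ → I → ℝ) (σ : ℕ → ℝ → ℝ)
      (u w : ℝ → A), ContinuousOn κ (Icc a (a + M * τ)) → (∀ i, Continuous (σ i)) →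
      (∀ i < M, ∀ s ∈ Icc (a + i * τ) (a + (i + 1) * τ), HasDerivAt u (w s) s ∧
        HasDerivAt w (σ i s • (K i * u s) - D.z (κ s) * w s) s) →
      (∀ s ∈ Icc a (a + M * τ), ∀ l, d₀ ≤ κ s l ∧ |κ s l - κ₀ l| ≤ ε) →
      (∀ i s, |σ i s| ≤ C / τ) → (∀ i, |p i| ≤ S) →
      (∀ i, |(∫ s in (a + i * τ)..(a + (i + 1) * τ), σ i s) - p i| ≤ C / τ) →
      u a = 1 → ‖w a‖ ≤ ε →
      ‖u (a + M * τ) - wordP (fun i => D.z κ₀⁻¹ * K i) p M‖ ≤ δ ∧ ‖w (a + M * τ)‖ ≤ δ := by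
  induction M generalizing δ with
  | zero =>
    refine ⟨δ, hδ, 1, one_pos, fun τ _ a p κ σ u w _ _ _ _ _ _ _ hu hw => ?_⟩
    simp [wordP, hu, hw, hδ.le]
  | succ M ih =>
    obtain ⟨R, hR⟩ := word_bd (fun i => D.z κ₀⁻¹ * K i) S M
    obtain ⟨B, hB0, hB⟩ := exp_bd (D.z κ₀⁻¹ * K M) S
    obtain ⟨ε₁, hε₁, τ₁, hτ₁, H₁⟩ := bump_one D (K M) κ₀ hd hκ₀ C (R + 1) (half_pos hδ)
    obtain ⟨ε₂, hε₂, τ₂, hτ₂, H₂⟩ := ih (δ := min ε₁ (min 1 (δ / 2 / B))) (by positivity)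
    refine ⟨min ε₁ ε₂, by positivity, max τ₁ τ₂, by positivity,
      fun τ hτ a p κ σ u w hκ hσ hs hb hC hp hI hu hw => ?_⟩
    have hτ0 : 0 ≤ τ := hτ₁.le.trans ((le_max_left _ _).trans hτ)
    have hM : (0 : ℝ) ≤ M * τ := by positivity
    have e : a + ((M + 1 : ℕ) : ℝ) * τ = a + M * τ + τ := by push_cast; ring
    have e' : a + (M + 1 : ℝ) * τ = a + M * τ + τ := by ring
    rw [e] at hκ hb ⊢
    obtain ⟨k1, k2⟩ := H₂ τ ((le_max_right _ _).trans hτ) a p κ σ u w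
      (hκ.mono (Icc_subset_Icc_right (by linarith))) hσ (fun i hi => hs i (by omega))
      (fun s h l => ⟨(hb s ⟨h.1, by linarith [h.2]⟩ l).1,
        (hb s ⟨h.1, by linarith [h.2]⟩ l).2.trans (min_le_right _ _)⟩) hC hp hI hu
      (hw.trans (min_le_right _ _))
    obtain ⟨k3, k4⟩ := H₁ τ ((le_max_left _ _).trans hτ) (a + M * τ) (p M) κ (σ M) u w
      (hκ.mono (Icc_subset_Icc_left (by linarith))) (hσ M) (e' ▸ hs M (by omega))
      (fun s h => ⟨fun l => ⟨(hb s ⟨by linarith [h.1], h.2⟩ l).1,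
        (hb s ⟨by linarith [h.1], h.2⟩ l).2.trans (min_le_left _ _)⟩, hC M s⟩) (e' ▸ hI M)
      ((norm_le_norm_add_norm_sub' _ _).trans (add_le_add (hR p hp)
        (k1.trans ((min_le_right _ _).trans (min_le_left _ _))))) (k2.trans (min_le_left _ _))
    refine ⟨(norm_sub_le_norm_sub_add_norm_sub _ _ _).trans
      ((add_le_add k3 ?_).trans (add_halves δ).le), k4.trans (half_le_self hδ.le)⟩
    rw [wordP, ← mul_sub]
    refine (norm_mul_le _ _).trans ((mul_le_mul (hB _ (hp M))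
      (k1.trans ((min_le_right _ _).trans (min_le_right _ _))) (norm_nonneg _) hB0.le).trans ?_)
    rw [mul_div_cancel₀ _ hB0.ne']

end Vale.Agent.P225
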