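import Vale.Agent.P225.ODefs

namespace Vale.Agent.P225

open Set Filter
open scoped ContDiff Topology

variable {A : Type} [NormedRing A] [NormedAlgebra ℝ A] {d d' : ℝ → ℝ} {Λ Λ' U V U' V' : ℝ → A}

namespace LinODEAux

theorem lin_exists {X : Type} [NormedAddCommGroup X] [NormedSpace ℝ X] [CompleteSpace X]
    {L : ℝ → X →L[ℝ] X} (hL : Continuous L) (a : ℝ) (x0 : X) :
    ∃ x : ℝ → X, x a = x0 ∧ ∀ t, HasDerivAt x (L t (x t)) t := by
  let x : ℕ → ℝ → X := fun n => Nat.rec (fun _ => x0) (fun _ y t => ∫ s in a..t, L s (y s)) n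
  have xs : ∀ n t, x (n + 1) t = ∫ s in a..t, L s (x n s) := fun _ _ => rfl
  have hd : ∀ n, Continuous (x n) → ∀ t, HasDerivAt (x (n + 1)) (L t (x n t)) t := fun n h t =>
    ((hL.clm_apply h).integral_hasStrictDerivAt a t).hasDerivAt
  have hc : ∀ n, Continuous (x n) := by
    intro n
    induction n with
    | zero => exact continuous_const
    | succ n ih => exact continuous_iff_continuousAt.2 fun t => (hd n ih t).continuousAt
  have hb : ∀ T K : ℝ, 0 ≤ K → (∀ s ∈ Icc (a - T) (a + T), ‖L s‖ ≤ K) → ∀ n,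
      ∀ t ∈ Icc (a - T) (a + T), ‖x n t‖ ≤ (K * |t - a|) ^ n / n.factorial * ‖x0‖ := by
    intro T K hK0 hK n
    induction n with
    | zero => intro t _; simp [x]
    | succ n ih =>
      intro t ht
      have ha : a ∈ Icc (a - T) (a + T) := ⟨by linarith [ht.1, ht.2], by linarith [ht.1, ht.2]⟩
      rw [xs]
      calc _ ≤ ∫ s in uIoc a t, |s - a| ^ n * (K ^ (n + 1) / n.factorial * ‖x0‖) := by
            rw [intervalIntegral.norm_intervalIntegral_eq]
            refine MeasureTheory.norm_integral_le_of_norm_le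
              (Continuous.integrableOn_uIoc (by fun_prop)) ?_
            refine (MeasureTheory.ae_restrict_mem measurableSet_Ioc).mono fun s hs => ?_
            have hs' : s ∈ Icc (a - T) (a + T) := (uIoc_subset_uIcc.trans (uIcc_subset_Icc ha ht)) hs
            calc _ ≤ ‖L s‖ * ‖x n s‖ := (L s).le_opNorm _
              _ ≤ K * ((K * |s - a|) ^ n / n.factorial * ‖x0‖) := by
                gcongr
                · exact hK s hs'
                · exact ih s hs'
              _ = _ := by ring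
        _ = _ := by
            rw [MeasureTheory.integral_mul_const, integral_pow_abs_sub_uIoc, Nat.factorial_succ]
            push_cast
            field_simp
            ring
  have key : ∀ t, Summable (fun n => x n t) ∧
      HasDerivAt (fun z => ∑' n, x (n + 1) z) (∑' n, L t (x n t)) t := by
    intro t
    set T := |t - a| + 1
    obtain ⟨K, hK⟩ := (isCompact_Icc (a := a - T) (b := a + T)).exists_bound_of_continuousOn
      hL.continuousOn
    have ht : t ∈ Ioo (a - T) (a + T) :=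
      ⟨by linarith [neg_abs_le (t - a)], by linarith [le_abs_self (t - a)]⟩
    have hK0 : 0 ≤ K := (norm_nonneg _).trans (hK t (Ioo_subset_Icc_self ht))
    have h1 : ∀ n, ∀ s ∈ Icc (a - T) (a + T), ‖x n s‖ ≤ (K * T) ^ n / n.factorial * ‖x0‖ := by
      intro n s hs
      refine (hb T K hK0 hK n s hs).trans ?_
      have : |s - a| ≤ T := abs_le.2 ⟨by linarith [hs.1], by linarith [hs.2]⟩
      gcongr
    have hs := (Real.summable_pow_div_factorial (K * T)).mul_right ‖x0‖
    refine ⟨.of_norm_bounded hs fun n => h1 n t (Ioo_subset_Icc_self ht),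
      hasDerivAt_tsum_of_isPreconnected (hs.mul_left K) isOpen_Ioo isPreconnected_Ioo
        (g := fun n => x (n + 1)) (g' := fun n s => L s (x n s)) (y₀ := a)
        (fun n s _ => hd n (hc n) s) (fun n s hs => ?_) ?_ ?_ ht⟩
    · exact ((L s).le_opNorm _).trans (mul_le_mul (hK s (Ioo_subset_Icc_self hs))
        (h1 n s (Ioo_subset_Icc_self hs)) (norm_nonneg _) hK0)
    · constructor <;> linarith [abs_nonneg (t - a)]
    · simp [xs, summable_zero]
  refine ⟨fun z => x0 + ∑' n, x (n + 1) z, by simp [xs], fun t => ?_⟩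
  have := (key t).2.const_add x0
  rwa [← (L t).map_tsum (key t).1, (key t).1.tsum_eq_zero_add] at this

/-- the first order system -/
noncomputable def sys (c : ℝ) (l : A) : A × A →L[ℝ] A × A :=
  (ContinuousLinearMap.snd ℝ A A).prod
    ((ContinuousLinearMap.mul ℝ A l).comp (ContinuousLinearMap.fst ℝ A A) -
      c • ContinuousLinearMap.snd ℝ A A)

theorem sys_apply (c : ℝ) (l : A) (x : A × A) : sys c l x = (x.2, l * x.1 - c • x.2) := rfl

theorem sys_le {c K : ℝ} {l : A} (h1 : |c| ≤ K) (h2 : ‖l‖ ≤ K) (x : A × A) :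
    ‖sys c l x‖ ≤ (2 * K + 1) * ‖x‖ := by
  have hK : 0 ≤ K := (abs_nonneg _).trans h1
  have a1 := norm_fst_le x
  have a2 := norm_snd_le x
  rw [sys_apply, Prod.norm_def]
  refine max_le (by nlinarith [norm_nonneg x]) ((norm_sub_le _ _).trans ?_)
  rw [norm_smul, Real.norm_eq_abs]
  calc _ ≤ ‖l‖ * ‖x.1‖ + |c| * ‖x.2‖ := by gcongr; exact norm_mul_le _ _
    _ ≤ K * ‖x‖ + K * ‖x‖ := by gcongr
    _ ≤ _ := by nlinarith [norm_nonneg x]

theorem pair (h : Sol d Λ U V) (s : ℝ) :
    HasDerivAt (fun s => (U s, V s)) (sys (d s) (Λ s) (U s, V s)) s := (h s).1.prodMk (h s).2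

omit [NormedAlgebra ℝ A] in
theorem bdd (hd : Continuous d) (hΛ : Continuous Λ) (a b : ℝ) :
    ∃ K, 0 ≤ K ∧ ∀ s ∈ Icc a b, |d s| ≤ K ∧ ‖Λ s‖ ≤ K := by
  obtain ⟨K, hK⟩ := (isCompact_Icc (a := a) (b := b)).exists_bound_of_continuousOn hd.continuousOn
  obtain ⟨K', hK'⟩ := (isCompact_Icc (a := a) (b := b)).exists_bound_of_continuousOn hΛ.continuousOn
  exact ⟨max (max K K') 0, le_max_right _ _, fun s hs =>
    ⟨(hK s hs).trans (le_max_of_le_left (le_max_left _ _)),
      (hK' s hs).trans (le_max_of_le_left (le_max_right _ _))⟩⟩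

end LinODEAux

open LinODEAux

theorem sol_exists [CompleteSpace A] (hd : Continuous d) (hΛ : Continuous Λ) (a : ℝ) (u v : A) :
    ∃ U V, Sol d Λ U V ∧ U a = u ∧ V a = v := by
  have hL : Continuous fun s => sys (d s) (Λ s) := by
    unfold sys
    exact ContinuousLinearMap.prodₗᵢ ℝ |>.continuous.comp (continuous_const.prodMk
      ((((ContinuousLinearMap.mul ℝ A).continuous.comp hΛ).clm_comp continuous_const).sub
        (hd.smul continuous_const)))
  obtain ⟨x, h0, hx⟩ := lin_exists hL a (u, v)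
  exact ⟨fun s => (x s).1, fun s => (x s).2, fun s => ⟨(hx s).fst, (hx s).snd⟩,
    congrArg Prod.fst h0, congrArg Prod.snd h0⟩

theorem Sol.unique (h : Sol d Λ U V) (h' : Sol d' Λ' U' V') (hd : Continuous d)
    (hΛ : Continuous Λ) {a b t : ℝ} (ht : t ∈ Icc a b) (he : ∀ s ∈ Icc a b, d s = d' s ∧ Λ s = Λ' s)
    (hU : U t = U' t) (hV : V t = V' t) : ∀ s ∈ Icc a b, U s = U' s ∧ V s = V' s := by
  obtain ⟨K, hK0, hK⟩ := bdd hd hΛ a b
  have hl : ∀ s ∈ Icc a b, LipschitzOnWith ⟨2 * K + 1, by positivity⟩ (sys (d s) (Λ s)) univ :=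
    fun s hs => (ContinuousLinearMap.lipschitzWith_of_opNorm_le
      (ContinuousLinearMap.opNorm_le_bound (M := 2 * K + 1) _ (by positivity)
        (sys_le (hK s hs).1 (hK s hs).2))).lipschitzOnWith
  have p' : ∀ s ∈ Icc a b, HasDerivAt (fun s => (U' s, V' s)) (sys (d s) (Λ s) (U' s, V' s)) s :=
    fun s hs => by rw [(he s hs).1, (he s hs).2]; exact pair h' s
  have c : Continuous fun s => (U s, V s) :=
    continuous_iff_continuousAt.2 fun s => (pair h s).continuousAt
  have c' : Continuous fun s => (U' s, V' s) :=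
    continuous_iff_continuousAt.2 fun s => (pair h' s).continuousAt
  intro s hs
  refine Prod.mk.inj (?_ : (U s, V s) = (U' s, V' s))
  rcases le_total s t with hst | hst
  · have hss : Ioc a t ⊆ Icc a b := fun r hr => ⟨hr.1.le, hr.2.trans ht.2⟩
    exact ODE_solution_unique_of_mem_Icc_left (v := fun s => sys (d s) (Λ s)) (s := fun _ => univ)
      (fun r hr => hl r (hss hr)) c.continuousOn (fun r _ => (pair h r).hasDerivWithinAt)
      (fun _ _ => trivial) c'.continuousOn (fun r hr => (p' r (hss hr)).hasDerivWithinAt)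
      (fun _ _ => trivial) (by rw [hU, hV]) ⟨hs.1, hst⟩
  · have hss : Ico t b ⊆ Icc a b := fun r hr => ⟨ht.1.trans hr.1, hr.2.le⟩
    exact ODE_solution_unique_of_mem_Icc_right (v := fun s => sys (d s) (Λ s)) (s := fun _ => univ)
      (fun r hr => hl r (hss hr)) c.continuousOn (fun r _ => (pair h r).hasDerivWithinAt)
      (fun _ _ => trivial) c'.continuousOn (fun r hr => (p' r (hss hr)).hasDerivWithinAt)
      (fun _ _ => trivial) (by rw [hU, hV]) ⟨hst, hs.2⟩

theorem Sol.bound (h : Sol d Λ U V) {a b K : ℝ} (hK : ∀ s ∈ Icc a b, |d s| ≤ K ∧ ‖Λ s‖ ≤ K) :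
    ∀ s ∈ Icc a b, max ‖U s‖ ‖V s‖ ≤ Real.exp ((2 * K + 1) * (s - a)) * max ‖U a‖ ‖V a‖ := by
  intro s hs
  have := norm_le_gronwallBound_of_norm_deriv_right_le (f := fun s => (U s, V s)) (ε := 0)
    (K := 2 * K + 1) (fun r _ => (pair h r).continuousAt.continuousWithinAt)
    (fun r _ => (pair h r).hasDerivWithinAt) le_rfl
    (fun r hr => by
      rw [add_zero]
      exact sys_le (hK r (Ico_subset_Icc_self hr)).1 (hK r (Ico_subset_Icc_self hr)).2 _) s hs
  rwa [gronwallBound_ε0, mul_comm] at this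

theorem Sol.smooth (h : Sol d Λ U V) (hd : ContDiff ℝ ∞ d) (hΛ : ContDiff ℝ ∞ Λ) :
    ContDiff ℝ ∞ U ∧ ContDiff ℝ ∞ V := by
  have key : ∀ n : ℕ, ContDiff ℝ n U ∧ ContDiff ℝ n V := by
    intro n
    induction n with
    | zero => exact ⟨contDiff_zero.2 (continuous_iff_continuousAt.2 fun s => (h s).1.continuousAt),
        contDiff_zero.2 (continuous_iff_continuousAt.2 fun s => (h s).2.continuousAt)⟩
    | succ n ih =>
      push_cast
      refine ⟨contDiff_succ_iff_deriv.2 ⟨fun s => (h s).1.differentiableAt, by simp, ?_⟩,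
        contDiff_succ_iff_deriv.2 ⟨fun s => (h s).2.differentiableAt, by simp, ?_⟩⟩
      · rw [funext fun s => (h s).1.deriv]; exact ih.2
      · rw [funext fun s => (h s).2.deriv]
        exact ((hΛ.of_le (by exact_mod_cast le_top)).mul ih.1).sub
          ((hd.of_le (by exact_mod_cast le_top)).smul ih.2)
  exact ⟨contDiff_infty.2 fun n => (key n).1, contDiff_infty.2 fun n => (key n).2⟩

theorem Sol.mul_right (h : Sol d Λ U V) (B : A) :
    Sol d Λ (fun s => U s * B) (fun s => V s * B) := fun s =>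
  ⟨(h s).1.mul_const B, ((h s).2.mul_const B).congr_deriv (by
    rw [sub_mul, mul_assoc, smul_mul_assoc])⟩

theorem Sol.map {B : Type} [NormedRing B] [NormedAlgebra ℝ B] (h : Sol d Λ U V) (f : A →ₐ[ℝ] B)
    (hf : Continuous f) : Sol d (fun s => f (Λ s)) (fun s => f (U s)) (fun s => f (V s)) := fun s => by
  let T : A →L[ℝ] B := ⟨f.toLinearMap, hf⟩
  refine ⟨T.hasFDerivAt.comp_hasDerivAt s (h s).1,
    (T.hasFDerivAt.comp_hasDerivAt s (h s).2).congr_deriv ?_⟩
  show f _ = _
  rw [map_sub, map_mul, map_smul]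

theorem Sol.apply {ι : Type} [Fintype ι] {Λ U V : ℝ → ι → ℝ} (h : Sol d Λ U V) (i : ι) :
    Sol d (fun s => Λ s i) (fun s => U s i) (fun s => V s i) := fun s =>
  ⟨hasDerivAt_pi.1 (h s).1 i, hasDerivAt_pi.1 (h s).2 i⟩

theorem sol_cont {P : Type} [TopologicalSpace P] (hd : Continuous d) {Λ U V : P → ℝ → A}
    (hΛ : Continuous fun q : P × ℝ => Λ q.1 q.2) (h : ∀ p, Sol d (Λ p) (U p) (V p)) {a b : ℝ}
    (hab : a ≤ b) {u v : A} (hU : ∀ p, U p a = u) (hV : ∀ p, V p a = v) :
    Continuous fun p => U p b := by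
  refine continuous_iff_continuousAt.2 fun p₀ => ?_
  obtain ⟨K, hK0, hK⟩ := bdd hd (hΛ.comp (Continuous.prodMk_right p₀)) a b
  obtain ⟨R, hR⟩ := (isCompact_Icc (a := a) (b := b)).exists_bound_of_continuousOn
    (f := U p₀) fun s _ => (h p₀ s).1.continuousAt.continuousWithinAt
  have hR0 : 0 ≤ R := (norm_nonneg _).trans (hR a ⟨le_rfl, hab⟩)
  rw [ContinuousAt, tendsto_iff_norm_sub_tendsto_zero]
  refine (tendsto_order.2 ⟨fun e he => Eventually.of_forall fun p => he.trans_le (norm_nonneg _),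
    fun e he => ?_⟩)
  have h1 : Tendsto (fun η => gronwallBound 0 (2 * (K + 1) + 1) (η * R) (b - a)) (𝓝[>] 0) (𝓝 0) := by
    have := ((gronwallBound_continuous_ε 0 (2 * (K + 1) + 1) (b - a)).comp
      (continuous_mul_const R)).tendsto 0
    rw [Function.comp_apply, zero_mul, gronwallBound_ε0_δ0] at this
    exact this.mono_left nhdsWithin_le_nhds
  obtain ⟨η, hη, hη1, hη0⟩ := ((h1.eventually (gt_mem_nhds he)).and
    (Eventually.and (nhdsWithin_le_nhds (ge_mem_nhds one_pos) : ∀ᶠ η in 𝓝[>] (0 : ℝ), η ≤ 1)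
      (self_mem_nhdsWithin : ∀ᶠ η in 𝓝[>] (0 : ℝ), 0 < η))).exists
  have h2 : ∀ᶠ p in 𝓝 p₀, ∀ s ∈ Icc a b, ‖Λ p s - Λ p₀ s‖ ≤ η := by
    refine isCompact_Icc.eventually_forall_of_forall_eventually
      (P := fun p s => ‖Λ p s - Λ p₀ s‖ ≤ η) fun s _ => ?_
    have c : Continuous fun q : P × ℝ => ‖Λ q.1 q.2 - Λ p₀ q.2‖ :=
      (hΛ.sub (hΛ.comp ((Continuous.prodMk_right p₀).comp continuous_snd))).norm
    exact c.continuousAt.eventually (ge_mem_nhds (by simpa using hη0))
  filter_upwards [h2] with p hp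
  have := norm_le_gronwallBound_of_norm_deriv_right_le
    (f := fun s => (U p s, V p s) - (U p₀ s, V p₀ s)) (δ := 0) (ε := η * R) (K := 2 * (K + 1) + 1)
    (fun r _ => ((pair (h p) r).sub (pair (h p₀) r)).continuousAt.continuousWithinAt)
    (fun r _ => ((pair (h p) r).sub (pair (h p₀) r)).hasDerivWithinAt) (by simp [hU, hV])
    (fun r hr => ?_) b ⟨hab, le_rfl⟩
  · exact ((norm_fst_le _).trans this).trans_lt hη
  have hr' := Ico_subset_Icc_self hr
  have e : sys (d r) (Λ p r) (U p r, V p r) - sys (d r) (Λ p₀ r) (U p₀ r, V p₀ r) =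
      sys (d r) (Λ p r) ((U p r, V p r) - (U p₀ r, V p₀ r)) + (0, (Λ p r - Λ p₀ r) * U p₀ r) := by
    simp only [sys_apply, Prod.mk_sub_mk, Prod.mk_add_mk, add_zero, mul_sub, sub_mul, smul_sub]
    congr 1
    abel
  rw [e]
  refine (norm_add_le _ _).trans (add_le_add (sys_le ((hK r hr').1.trans (by linarith)) ?_ _) ?_)
  · have := norm_le_insert' (Λ p r) (Λ p₀ r)
    have a1 : ‖Λ p₀ r‖ ≤ K := (hK r hr').2
    linarith [hp r hr']
  · rw [Prod.norm_mk, norm_zero]
    exact max_le (mul_nonneg (le_of_lt hη0) hR0) ((norm_mul_le _ _).trans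
      (mul_le_mul (hp r hr') (hR r hr') (norm_nonneg _) (le_of_lt hη0)))

end Vale.Agent.P225
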