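import Vale.Agent.P225.Decay

namespace Vale.Agent.P225

open Set Filter
open scoped ContDiff Topology

variable {d Λ y v : ℝ → ℝ} {a b : ℝ}

namespace ScalAux

theorem pos_aux (h : Sol d Λ y v) (hd : Continuous d) (hΛ : ∀ s ∈ Icc a b, 0 ≤ Λ s)
    (hy : ∀ s ∈ Icc a b, 0 ≤ y s) (hv : 0 ≤ v a) :
    (∀ s ∈ Icc a b, 0 ≤ v s) ∧ MonotoneOn y (Icc a b) := by
  have hw : ∀ s, HasDerivAt (fun s => Real.exp (∫ u in a..s, d u) * v s)
      (Real.exp (∫ u in a..s, d u) * (Λ s * y s)) s := fun s =>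
    ((hd.integral_hasStrictDerivAt a s).hasDerivAt.exp.mul (h s).2).congr_deriv (by
      simp only [smul_eq_mul]; ring)
  have hm := monotoneOn_of_deriv_nonneg (convex_Icc a b)
    (fun s _ => (hw s).continuousAt.continuousWithinAt)
    (fun s _ => (hw s).differentiableAt.differentiableWithinAt) fun s hs => by
      rw [(hw s).deriv]
      exact mul_nonneg (Real.exp_pos _).le
        (mul_nonneg (hΛ s (interior_subset hs)) (hy s (interior_subset hs)))
  have h1 : ∀ s ∈ Icc a b, 0 ≤ v s := fun s hs => by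
    have := hm ⟨le_rfl, hs.1.trans hs.2⟩ hs hs.1
    exact le_of_mul_le_mul_left (by
      simp only [mul_zero]
      exact (mul_nonneg (Real.exp_pos _).le hv).trans this) (Real.exp_pos (∫ u in a..s, d u))
  exact ⟨h1, monotoneOn_of_deriv_nonneg (convex_Icc a b)
    (fun s _ => (h s).1.continuousAt.continuousWithinAt)
    (fun s _ => (h s).1.differentiableAt.differentiableWithinAt) fun s hs => by
      rw [(h s).1.deriv]; exact h1 s (interior_subset hs)⟩

theorem ric (h : Sol d Λ y v) {s : ℝ} (hy : y s ≠ 0) :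
    HasDerivAt (fun s => v s / y s) (Λ s - d s * (v s / y s) - (v s / y s) ^ 2) s :=
  ((h s).2.div (h s).1 hy).congr_deriv (by simp only [smul_eq_mul]; field_simp)

/-- the scalar diagonal structure -/
noncomputable def D1 : Diag ℝ Unit Unit where
  dg := Pi.evalAlgHom ℝ (fun _ => ℝ) ()
  blk := id
  norm_dg d := (pi_norm_const (ι := Unit) (d ())).symm
  cen _ _ := mul_comm _ _

end ScalAux

open ScalAux

theorem Sol.pos (h : Sol d Λ y v) (hd : Continuous d) (hΛ : ∀ s ∈ Icc a b, 0 ≤ Λ s) (hy : 0 < y a)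
    (hv : 0 ≤ v a) : (∀ s ∈ Icc a b, 0 ≤ v s ∧ y a ≤ y s) ∧ MonotoneOn y (Icc a b) := by
  have cy : Continuous y := continuous_iff_continuousAt.2 fun s => (h s).1.continuousAt
  have key : Icc a b ⊆ {s | y a ≤ y s} := by
    refine IsClosed.Icc_subset_of_forall_mem_nhdsGT_of_Icc_subset
      ((isClosed_le continuous_const cy).inter isClosed_Icc) (le_refl (y a)) fun t ht hs => ?_
    have h1 : ∀ᶠ s in 𝓝[>] t, 0 < y s := nhdsWithin_le_nhds
      (cy.continuousAt.eventually (lt_mem_nhds (hy.trans_le (hs ⟨ht.1, le_rfl⟩))))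
    obtain ⟨u, hu, hu'⟩ := mem_nhdsGT_iff_exists_Ioc_subset.1 (inter_mem h1 (Ioo_mem_nhdsGT ht.2))
    have hm := (pos_aux (a := a) (b := u) h hd
      (fun s hs => hΛ s ⟨hs.1, hs.2.trans (hu' ⟨hu, le_rfl⟩).2.2.le⟩) (fun s hs' => ?_) hv).2
    · filter_upwards [Ioc_mem_nhdsGT hu] with s hs'
      have : a ≤ s := ht.1.trans hs'.1.le
      exact hm ⟨le_rfl, this.trans hs'.2⟩ ⟨this, hs'.2⟩ this
    · rcases le_or_gt s t with e | e
      · exact hy.le.trans (hs ⟨hs'.1, e⟩)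
      · exact (hu' ⟨e, hs'.2⟩).1.le
  have := pos_aux h hd hΛ (fun s hs => hy.le.trans (key hs)) hv
  exact ⟨fun s hs => ⟨this.1 s hs, key hs⟩, this.2⟩

theorem Sol.log_le (h : Sol d Λ y v) (hd : Continuous d) (hc : Continuous Λ)
    (hΛ : ∀ s ∈ Icc a b, 0 ≤ Λ s) (hy : 0 < y a) (hv : 0 ≤ v a) (hab : a ≤ b) {d₀ : ℝ}
    (h0 : ∀ s ∈ Icc a b, d₀ ≤ d s) (κ : ℝ) :
    (2 * κ + d₀) * (Real.log (y b) - Real.log (y a)) ≤
      (∫ s in a..b, Λ s) + κ ^ 2 * (b - a) + v a / y a := by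
  have hp := (h.pos hd hΛ hy hv).1
  have hF : ∀ s ∈ Icc a b, HasDerivAt (fun s => (2 * κ + d₀) * Real.log (y s) + v s / y s -
      (∫ u in a..s, Λ u) - κ ^ 2 * s) ((d₀ - d s) * (v s / y s) - (v s / y s - κ) ^ 2) s := by
    intro s hs
    have hne := (hy.trans_le (hp s hs).2).ne'
    refine ((((((h s).1.log hne).const_mul (2 * κ + d₀)).add (ric h hne)).sub
      (hc.integral_hasStrictDerivAt a s).hasDerivAt).sub
        ((hasDerivAt_id s).const_mul (κ ^ 2))).congr_deriv ?_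
    ring
  have hm := antitoneOn_of_deriv_nonpos (convex_Icc a b)
    (fun s hs => (hF s hs).continuousAt.continuousWithinAt)
    (fun s hs => (hF s (interior_subset hs)).differentiableAt.differentiableWithinAt) fun s hs => by
      have hs' := interior_subset hs
      rw [(hF s hs').deriv]
      have := div_nonneg (hp s hs').1 (hy.le.trans (hp s hs').2)
      nlinarith [h0 s hs', sq_nonneg (v s / y s - κ)]
  have := hm ⟨le_rfl, hab⟩ ⟨hab, le_rfl⟩ hab
  have hb := div_nonneg (hp b ⟨hab, le_rfl⟩).1 (hy.le.trans (hp b ⟨hab, le_rfl⟩).2)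
  simp only [intervalIntegral.integral_same] at this
  linarith

theorem Sol.settle (h : Sol d Λ y v) (hd : Continuous d) (hΛ : ∀ s ∈ Icc a b, 0 ≤ Λ s)
    (hy : 0 < y a) (hv : 0 ≤ v a) {d₀ d₁ α e₁ e₂ : ℝ} (h0 : 0 < d₀) (hα : 0 ≤ α)
    (h1 : ∀ s ∈ Icc a b, d₀ ≤ d s ∧ |d s - d₁| ≤ e₂ ∧ |Λ s - (α ^ 2 + d₁ * α)| ≤ e₁) :
    ∀ s ∈ Icc a b, |v s / y s - α| ≤
      Real.exp (-(d₀ * (s - a))) * |v a / y a - α| + (e₁ + e₂ * α) / d₀ := by
  have hp := (h.pos hd hΛ hy hv).1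
  have hne : ∀ s ∈ Icc a b, y s ≠ 0 := fun s hs => (hy.trans_le (hp s hs).2).ne'
  refine D1.decay (w := fun s => v s / y s - α) (κ := fun s _ => v s / y s + α + d s)
    (r := fun s => Λ s - (α ^ 2 + d₁ * α) - (d s - d₁) * α)
    (continuousOn_pi.2 fun _ s hs => ?_) (fun s hs => ?_) h0 (fun s hs _ => ?_) fun s hs => ?_
  · exact (((ric h (hne s hs)).continuousAt.add continuousAt_const).add
      hd.continuousAt).continuousWithinAt
  · refine ((ric h (hne s hs)).sub_const α).congr_deriv ?_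
    show _ = _ - (v s / y s + α + d s) * _
    ring
  · have := div_nonneg (hp s hs).1 (hy.le.trans (hp s hs).2)
    linarith [(h1 s hs).1]
  · refine (abs_sub _ _).trans (add_le_add (h1 s hs).2.2 ?_)
    rw [abs_mul, abs_of_nonneg hα]
    exact mul_le_mul_of_nonneg_right (h1 s hs).2.1 hα

end Vale.Agent.P225
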