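import Vale.Agent.P225.Decay
import Vale.Agent.P225.Scal
import Vale.Agent.P225.LinODE

namespace Vale.Agent.P225

open Set Filter NormedSpace
open scoped ContDiff Topology

set_option linter.unusedSectionVars false

variable {A ι I : Type} [NormedRing A] [NormedAlgebra ℝ A] [CompleteSpace A] [Fintype ι]
  [Fintype I]

namespace CycBAux

variable (D : Diag A ι I) {d : ℝ → ℝ} {Λ U V : ℝ → A} {Λr y v : ℝ → ι → ℝ} {s : ℝ}

theorem hq (hr : Sol d Λr y v) (hy : ∀ i, y s i ≠ 0) :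
    HasDerivAt (fun s => v s / y s) (Λr s - d s • (v s / y s) - (v s / y s) * (v s / y s)) s :=
  hasDerivAt_pi.2 fun i => (ScalAux.ric (hr.apply i) (hy i)).congr_deriv (by simp [sq])

theorem hinv (hr : Sol d Λr y v) (hy : ∀ i, y s i ≠ 0) :
    HasDerivAt (fun s => (y s)⁻¹) (-((y s)⁻¹ * (v s / y s))) s :=
  hasDerivAt_pi.2 fun i => (((hr.apply i) s).1.inv (hy i)).congr_deriv (by
    have := hy i
    simp only [Pi.neg_apply, Pi.mul_apply, Pi.inv_apply, Pi.div_apply]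
    field_simp)

theorem hW (h : Sol d Λ U V) (hr : Sol d Λr y v) (hy : ∀ i, y s i ≠ 0) :
    HasDerivAt (fun s => V s - D.dg (v s / y s) * U s) ((Λ s - D.dg (Λr s)) * U s -
      D.dg (d s • 1 + v s / y s) * (V s - D.dg (v s / y s) * U s)) s := by
  refine ((h s).2.sub ((D.hasDerivAt (hq hr hy)).mul (h s).1)).congr_deriv ?_
  simp only [map_sub, map_add, map_smul, map_mul, map_one, mul_sub, sub_mul, add_mul, smul_mul_assoc,
    one_mul, mul_assoc]
  abel

theorem hu (h : Sol d Λ U V) (hr : Sol d Λr y v) (hy : ∀ i, y s i ≠ 0) :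
    HasDerivAt (fun s => D.dg (y s)⁻¹ * U s) (D.dg (y s)⁻¹ * (V s - D.dg (v s / y s) * U s)) s := by
  refine ((D.hasDerivAt (hinv hr hy)).mul (h s).1).congr_deriv ?_
  simp only [map_neg, map_mul, mul_sub, neg_mul, mul_assoc]
  abel

theorem hw (h : Sol d Λ U V) (hr : Sol d Λr y v) (hy : ∀ i, y s i ≠ 0) :
    HasDerivAt (fun s => D.dg (y s)⁻¹ * (V s - D.dg (v s / y s) * U s))
      (D.dg (y s)⁻¹ * ((Λ s - D.dg (Λr s)) * U s) - D.dg (d s • 1 + v s / y s + v s / y s) *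
        (D.dg (y s)⁻¹ * (V s - D.dg (v s / y s) * U s))) s := by
  refine ((D.hasDerivAt (hinv hr hy)).mul (hW D h hr hy)).congr_deriv ?_
  rw [mul_sub (D.dg _) (_ * _), ← mul_assoc (D.dg _) (D.dg _), ← mul_assoc (D.dg _) (D.dg _),
    ← map_mul, ← map_mul, add_mul _ (v s / y s), map_add, add_mul, map_neg, neg_mul,
    mul_comm (d s • 1 + v s / y s), mul_comm (v s / y s)]
  abel

end CycBAux

open CycBAux

theorem dwell_phase (D : Diag A ι I) {d : ℝ → ℝ} {Λ U V : ℝ → A} {Λr y v : ℝ → ι → ℝ}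
    {a b d₀ : ℝ} (hab : a ≤ b) (hd : Continuous d) (hd₀ : 0 < d₀) (h : Sol d Λ U V)
    (hr : Sol d Λr y v) (h1 : ∀ s ∈ Icc a b, Λ s = D.dg (Λr s) ∧ d₀ ≤ d s ∧ ∀ i, 0 ≤ Λr s i)
    {y₁ v₁ : I → ℝ} (hy : y a = y₁ ∘ D.blk) (hv : v a = v₁ ∘ D.blk) (hy₁ : ∀ l, 0 < y₁ l)
    (hv₁ : ∀ l, 0 ≤ v₁ l) {ε : ℝ} (hw : ‖D.z y₁⁻¹ * (V a - D.z (v₁ / y₁) * U a)‖ ≤ ε) :
    ‖D.dg (y b)⁻¹ * U b - D.z y₁⁻¹ * U a‖ ≤ ε / d₀ ∧
    ∀ (G G' : A) (α : I → ℝ), U b = D.dg (y b) * G → G' * G = 1 →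
      ∃ B, ‖B‖ ≤ ‖v b / y b - α ∘ D.blk‖ + Real.exp (-(d₀ * (b - a))) * ε * ‖G'‖ ∧
        V b = (D.z α + B) * U b := by
  have ya : ∀ i, 0 < y a i := fun i => by rw [hy]; exact hy₁ _
  have hp := fun i => ((hr.apply i).pos (a := a) (b := b) hd (fun s hs => (h1 s hs).2.2 i) (ya i)
    (by rw [hv]; exact hv₁ _)).1
  have y0 : ∀ s ∈ Icc a b, ∀ i, 0 < y s i := fun s hs i => (ya i).trans_le (hp i s hs).2
  have yn : ∀ s ∈ Icc a b, ∀ i, y s i ≠ 0 := fun s hs i => (y0 s hs i).ne'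
  have q0 : ∀ s ∈ Icc a b, ∀ i, 0 ≤ (v s / y s) i := fun s hs i =>
    div_nonneg (hp i s hs).1 (y0 s hs i).le
  have cq : ContinuousOn (fun s => v s / y s) (Icc a b) := fun s hs =>
    (hq hr (yn s hs)).continuousAt.continuousWithinAt
  have cd : ContinuousOn (fun s => d s • (1 : ι → ℝ)) (Icc a b) :=
    (hd.smul continuous_const).continuousOn
  have e1 : D.dg (y a)⁻¹ = D.z y₁⁻¹ := by rw [hy]; rfl
  have e2 : D.dg (v a / y a) = D.z (v₁ / y₁) := by rw [hy, hv]; rfl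
  have ε0 : 0 ≤ ε := (norm_nonneg _).trans hw
  have k1 := D.decay (r := fun _ => 0) (ρ := 0) (d₀ := d₀) ((cd.add cq).add cq) (fun s hs =>
    (CycBAux.hw D h hr (yn s hs)).congr_deriv (by rw [(h1 s hs).1, sub_self, zero_mul, mul_zero]; rfl))
    hd₀ (fun s hs i => by
      have := q0 s hs i
      have := (h1 s hs).2.1
      simp only [Pi.add_apply, Pi.smul_apply, Pi.one_apply, smul_eq_mul, mul_one]
      linarith) (fun _ _ => norm_zero.le)
  have k2 := D.decay (w := fun s => D.z y₁⁻¹ * (V s - D.dg (v s / y s) * U s)) (r := fun _ => 0)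
    (ρ := 0) (d₀ := d₀) (cd.add cq) (fun s hs =>
    ((hW D h hr (yn s hs)).const_mul (D.z y₁⁻¹)).congr_deriv (by
      rw [(h1 s hs).1, sub_self, zero_mul, zero_sub, zero_sub, mul_neg, ← mul_assoc, D.z_comm,
        mul_assoc]; rfl))
    hd₀ (fun s hs i => by
      have := q0 s hs i
      have := (h1 s hs).2.1
      simp only [Pi.add_apply, Pi.smul_apply, Pi.one_apply, smul_eq_mul, mul_one]
      linarith) (fun _ _ => norm_zero.le) b ⟨hab, le_rfl⟩
  simp only [e1, e2, zero_div, add_zero] at k1 k2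
  refine ⟨?_, fun G G' α hG hG' => ⟨D.dg (v b / y b - α ∘ D.blk) +
    D.z y₁⁻¹ * (V b - D.dg (v b / y b) * U b) * G' * D.dg (y a / y b), ?_, ?_⟩⟩
  · have := image_norm_le_of_norm_deriv_right_le_deriv_boundary
      (f := fun s => D.dg (y s)⁻¹ * U s - D.z y₁⁻¹ * U a)
      (fun t ht => ((hu D h hr (yn t ht)).sub_const _).continuousAt.continuousWithinAt)
      (fun t ht => ((hu D h hr (yn t (Ico_subset_Icc_self ht))).sub_const _).hasDerivWithinAt)
      (B := fun t => ε / d₀ * (1 - Real.exp (-(d₀ * (t - a)))))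
      (B' := fun t => Real.exp (-(d₀ * (t - a))) * ε) (by simp [e1]) (fun t => ?_)
      (fun t ht => (k1 t (Ico_subset_Icc_self ht)).trans (by gcongr)) ⟨hab, le_rfl⟩
    · exact this.trans (mul_le_of_le_one_right (by positivity) (sub_le_self _ (Real.exp_pos _).le))
    · refine (((((hasDerivAt_id t).sub_const a).const_mul d₀).neg.exp.const_sub 1).const_mul
        (ε / d₀)).congr_deriv ?_
      simp only [id, Pi.neg_apply]
      field_simp
  · refine (norm_add_le _ _).trans (add_le_add (D.norm_dg _).le ?_)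
    have : ‖D.dg (y a / y b)‖ ≤ 1 := by
      rw [D.norm_dg]
      refine (pi_norm_le_iff_of_nonneg zero_le_one).2 fun i => ?_
      have := y0 b ⟨hab, le_rfl⟩ i
      rw [Pi.div_apply, Real.norm_of_nonneg (div_nonneg (ya i).le this.le)]
      exact (div_le_one this).2 (hp i b ⟨hab, le_rfl⟩).2
    refine (norm_mul_le _ _).trans ((mul_le_of_le_one_right (norm_nonneg _) this).trans
      ((norm_mul_le _ _).trans ?_))
    gcongr
    exact k2.trans (by gcongr)
  · have e3 : G' * D.dg (y a / y b) * U b = D.z y₁ := by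
      have : y a / y b * y b = y₁ ∘ D.blk := by
        rw [← hy]
        exact funext fun i => div_mul_cancel₀ _ (yn b ⟨hab, le_rfl⟩ i)
      rw [hG, mul_assoc, ← mul_assoc _ _ G, ← map_mul, this]
      change G' * (D.z y₁ * G) = _
      rw [D.z_comm, ← mul_assoc, hG', one_mul]
    have e4 : D.z y₁ * D.z y₁⁻¹ = 1 := by
      rw [← D.z_mul, show y₁ * y₁⁻¹ = 1 from funext fun l => mul_inv_cancel₀ (hy₁ l).ne']
      exact map_one D.dg
    rw [← add_assoc, add_mul, mul_assoc _ G', mul_assoc _ (G' * _), e3, ← D.z_comm, ← mul_assoc, e4,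
      one_mul, map_sub]
    change _ = (D.z α + (_ - D.z α)) * _ + _
    rw [add_sub_cancel, add_sub_cancel]

end Vale.Agent.P225
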