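import Vale.Agent.P225.Prof

namespace Vale.Agent.P225

open Set Filter
open scoped ContDiff Topology

namespace ProfBAux

open ProfAux

/-- a function bounded by `B` with two derivatives bounded by `B / τ` -/
def T (τ B : ℝ) (f : ℝ → ℝ) : Prop := ∃ f' f'' : ℝ → ℝ, ∀ t, HasDerivAt f (f' t) t ∧
  HasDerivAt f' (f'' t) t ∧ |f t| ≤ B ∧ |f' t| ≤ B / τ ∧ |f'' t| ≤ B / τ

variable {τ B B' : ℝ} {f g : ℝ → ℝ}

theorem T.add (h : T τ B f) (h' : T τ B' g) : T τ (B + B') fun t => f t + g t := by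
  obtain ⟨f', f'', h⟩ := h
  obtain ⟨g', g'', h'⟩ := h'
  refine ⟨fun t => f' t + g' t, fun t => f'' t + g'' t, fun t => ?_⟩
  obtain ⟨a1, a2, a3, a4, a5⟩ := h t
  obtain ⟨b1, b2, b3, b4, b5⟩ := h' t
  rw [add_div]
  exact ⟨a1.add b1, a2.add b2, (abs_add_le _ _).trans (add_le_add a3 b3),
    (abs_add_le _ _).trans (add_le_add a4 b4), (abs_add_le _ _).trans (add_le_add a5 b5)⟩

theorem T.const (hτ : 1 ≤ τ) {c : ℝ} (h : |c| ≤ B) : T τ B fun _ => c := by
  have : |(0 : ℝ)| ≤ B / τ := by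
    rw [abs_zero]; exact div_nonneg ((abs_nonneg c).trans h) (by linarith)
  exact ⟨fun _ => 0, fun _ => 0, fun t =>
    ⟨hasDerivAt_const _ _, hasDerivAt_const _ _, h, this, this⟩⟩

theorem aml {x y a b : ℝ} (h : |x| ≤ a) (h' : |y| ≤ b) : |x * y| ≤ a * b := by
  rw [abs_mul]; exact mul_le_mul h h' (abs_nonneg _) ((abs_nonneg _).trans h)

theorem T.mul (hτ : 1 ≤ τ) (h : T τ B f) (h' : T τ B' g) :
    T τ (4 * (B * B')) fun t => f t * g t := by
  obtain ⟨f', f'', h⟩ := h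
  obtain ⟨g', g'', h'⟩ := h'
  refine ⟨fun t => f' t * g t + f t * g' t,
    fun t => f'' t * g t + f' t * g' t + (f' t * g' t + f t * g'' t), fun t => ?_⟩
  obtain ⟨a1, a2, a3, a4, a5⟩ := h t
  obtain ⟨b1, b2, b3, b4, b5⟩ := h' t
  have p1 : 0 ≤ B := (abs_nonneg _).trans a3
  have p2 : 0 ≤ B' := (abs_nonneg _).trans b3
  have b6 := b4.trans (div_le_self p2 hτ)
  have p3 : 0 ≤ B * B' := mul_nonneg p1 p2
  have p4 : 0 ≤ B * B' / τ := div_nonneg p3 (by linarith)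
  have e1 : B / τ * B' = B * B' / τ := by ring
  have e2 : B * (B' / τ) = B * B' / τ := by ring
  have e3 : 4 * (B * B') / τ = 4 * (B * B' / τ) := by ring
  have c1 := abs_le.1 (aml a4 b3)
  have c2 := abs_le.1 (aml a3 b4)
  have c3 := abs_le.1 (aml a5 b3)
  have c4 := abs_le.1 (aml a4 b6)
  have c5 := abs_le.1 (aml a3 b5)
  refine ⟨a1.mul b1, (a2.mul b1).add (a1.mul b2), (aml a3 b3).trans (by linarith), ?_, ?_⟩ <;>
    rw [abs_le] <;> constructor <;> linarith [c1.1, c1.2, c2.1, c2.2, c3.1, c3.2, c4.1, c4.2,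
      c5.1, c5.2]

theorem T.aff (hτ : 1 ≤ τ) (h : T 1 B f) {σ : ℝ} (hσ : |σ| ≤ 1 / τ) (a : ℝ) :
    T τ B fun t => f (σ * t + a) := by
  obtain ⟨f', f'', h⟩ := h
  refine ⟨fun t => f' (σ * t + a) * σ, fun t => f'' (σ * t + a) * σ * σ, fun t => ?_⟩
  obtain ⟨a1, a2, a3, a4, a5⟩ := h (σ * t + a)
  have d : HasDerivAt (fun t => σ * t + a) σ t := by
    simpa using ((hasDerivAt_id t).const_mul σ).add_const a
  have h1 : |σ| ≤ 1 := hσ.trans (div_le_self zero_le_one hτ)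
  exact ⟨a1.comp t d, (a2.comp t d).mul_const σ, a3, (aml a4 hσ).trans_eq (by ring),
    (aml (aml a5 hσ) h1).trans_eq (by ring)⟩

theorem T.sum (hτ : 1 ≤ τ) {F : ℕ → ℝ → ℝ} (h : ∀ i, T τ B (F i)) (n : ℕ) :
    T τ (n * B) fun t => ∑ i ∈ Finset.range n, F i t := by
  induction n with
  | zero => exact T.const hτ (c := 0) (by simp)
  | succ n ih => simpa only [Finset.sum_range_succ, Nat.cast_succ, add_one_mul] using ih.add (h n)

theorem T.deriv (h : T τ B f) (t : ℝ) :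
    |deriv f t| ≤ B / τ ∧ |deriv (deriv f) t| ≤ B / τ := by
  obtain ⟨f', f'', h⟩ := h
  rw [show _root_.deriv f = f' from funext fun t => (h t).1.deriv, (h t).2.1.deriv]
  exact (h t).2.2.2

theorem phi_bd : ∃ B > 0, T 1 B Phi ∧ T 1 B (deriv Phi) := by
  have s1 : HasCompactSupport (deriv Phi) := .intro (isCompact_Icc (a := 1 / 4) (b := 3 / 4))
    fun r h => dPhi_zero (by by_contra! g; exact h ⟨g.1.le, g.2.le⟩)
  have c1 := contDiff_dPhi
  have c2 := (contDiff_infty_iff_deriv.1 c1).2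
  have c3 := (contDiff_infty_iff_deriv.1 c2).2
  obtain ⟨a, ha⟩ := c1.continuous.bounded_above_of_compact_support s1
  obtain ⟨b, hb⟩ := c2.continuous.bounded_above_of_compact_support s1.deriv
  obtain ⟨c, hc⟩ := c3.continuous.bounded_above_of_compact_support s1.deriv.deriv
  have a0 := (norm_nonneg _).trans (ha 0)
  have b0 := (norm_nonneg _).trans (hb 0)
  have c0 := (norm_nonneg _).trans (hc 0)
  have d : ∀ {f : ℝ → ℝ}, ContDiff ℝ ∞ f → ∀ t, HasDerivAt f (deriv f t) t := fun h t =>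
    (h.differentiable (by simp) t).hasDerivAt
  refine ⟨1 + a + b + c, by linarith, ⟨_, _, fun t => ⟨d contDiff_Phi t, d c1 t, ?_, ?_, ?_⟩⟩,
    ⟨_, _, fun t => ⟨d c1 t, d c2 t, ?_, ?_, ?_⟩⟩⟩
  · rw [abs_of_nonneg (Phi_nonneg t)]; linarith [Phi_le t]
  · exact (ha t).trans (by linarith)
  · exact (hb t).trans (by linarith)
  · exact (ha t).trans (by linarith)
  · exact (hb t).trans (by linarith)
  · exact (hc t).trans (by linarith)

theorem ex2 {y R : ℝ} (h : |y| ≤ R) : |Real.exp y - 1 - y| ≤ y ^ 2 * Real.exp R := by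
  have := Complex.norm_exp_sub_sum_le_norm_mul_exp y 2
  simp only [Finset.sum_range_succ, Finset.range_zero, Finset.sum_empty] at this
  norm_num at this
  rw [← sub_sub] at this
  norm_cast at this
  exact this.trans (by gcongr)

theorem vs_bd (m : ℕ) (R : ℝ) : ∃ K > 0, ∀ x, |x| ≤ R →
    |vs m x - (4 * m + 2) * x| ≤ K * x ^ 2 ∧ |Real.exp (2 * x) - 1 - 2 * x| ≤ K * x ^ 2 := by
  refine ⟨4 * Real.exp (2 * R) + (4 * m) ^ 2 * Real.exp (4 * m * R), by positivity, fun x h => ?_⟩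
  have a := ex2 (y := 2 * x) (aml (abs_two.le) h)
  have b := ex2 (y := -(4 * m * x)) (R := 4 * m * R)
    ((abs_neg _).trans_le (aml (abs_of_nonneg (by positivity)).le h))
  have p : 0 ≤ (-(4 * m * x)) ^ 2 * Real.exp (4 * m * R) := by positivity
  refine ⟨?_, a.trans (by linarith)⟩
  rw [abs_le] at a b ⊢
  rw [vs]
  constructor <;> linarith [a.1, a.2, b.1, b.2]

end ProfBAux

open ProfAux ProfBAux

theorem etaI_bound (m : ℕ) (S : ℝ) : ∃ C > 0, ∀ τ ≥ 1, ∀ p : ℕ → ℝ, (∀ i, |p i| ≤ S) → ∀ i : ℕ,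
    (∀ t, |etaI m τ p i t| ≤ C / τ ∧ |vs m (etaI m τ p i t)| ≤ C / τ ∧
      |Real.exp (2 * etaI m τ p i t) - 1| ≤ C / τ) ∧
    ∀ a, |(∫ s in (a + i * τ)..(a + (i + 1) * τ), vs m (etaI m τ p i (s - a))) - p i| ≤ C / τ := by
  obtain ⟨B, hB, -, f', f'', hb⟩ := phi_bd
  obtain ⟨R, hR⟩ : ∃ R, R = |S| * B := ⟨_, rfl⟩
  have R0 : 0 ≤ R := by rw [hR]; positivity
  obtain ⟨K, hK, hv⟩ := vs_bd m R
  have m0 : (0 : ℝ) ≤ m := m.cast_nonneg
  refine ⟨(4 * m + 2) * R + K * R ^ 2 + 1, by positivity, fun τ hτ p hp i => ?_⟩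
  have τ0 : 0 < τ := by linarith
  have e1 : ∀ t, |etaI m τ p i t| ≤ R / τ := fun t => by
    rw [etaI, abs_div, abs_of_pos (by positivity : 0 < (4 * m + 2) * τ)]
    exact div_le_div₀ R0 (hR ▸ aml ((hp i).trans (le_abs_self S)) (hb _).2.2.1) τ0 (by nlinarith)
  have e2 : ∀ t, K * etaI m τ p i t ^ 2 ≤ K * R ^ 2 / τ / τ := fun t => by
    rw [← sq_abs]
    calc _ ≤ K * (R / τ) ^ 2 := by gcongr; exact e1 t
      _ = _ := by ring
  have e3 : K * R ^ 2 / τ / τ ≤ K * R ^ 2 / τ := div_le_self (by positivity) hτ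
  have e4 := fun t => hv _ ((e1 t).trans (div_le_self R0 hτ))
  have p1 : 0 ≤ R / τ := by positivity
  have p2 : 0 ≤ K * R ^ 2 / τ := by positivity
  have p3 : 0 < 1 / τ := by positivity
  have p4 : 0 ≤ m * (R / τ) := by positivity
  have e : ((4 * m + 2) * R + K * R ^ 2 + 1) / τ =
    4 * (m * (R / τ)) + 2 * (R / τ) + K * R ^ 2 / τ + 1 / τ := by ring
  rw [e]
  refine ⟨fun t => ?_, fun a => ?_⟩
  · have a1 := abs_le.1 (e1 t)
    have a2 := abs_le.1 (e4 t).1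
    have a3 := abs_le.1 (e4 t).2
    have a4 := abs_le.1 (aml (abs_of_nonneg m0).le (e1 t))
    refine ⟨?_, ?_, ?_⟩ <;> rw [abs_le] <;> constructor <;>
      linarith [a1.1, a1.2, a2.1, a2.2, a3.1, a3.2, a4.1, a4.2, e2 t]
  have c : Continuous fun s => etaI m τ p i (s - a) :=
    (contDiff_etaI m τ p i).continuous.comp (by fun_prop)
  have i1 : ∫ s in (a + i * τ)..(a + (i + 1) * τ), (4 * m + 2) * etaI m τ p i (s - a) = p i := by
    rw [intervalIntegral.integral_eq_sub_of_hasDerivAt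
      (f := fun s => p i * Phi ((s - a) / τ - i)) (fun s _ => ?_)
      ((c.const_mul _).intervalIntegrable _ _)]
    · rw [Phi_one, Phi_zero]
      · ring
      · rw [add_sub_cancel_left, mul_div_cancel_right₀ _ τ0.ne']; norm_num
      · rw [add_sub_cancel_left, mul_div_cancel_right₀ _ τ0.ne']; norm_num
    · refine (((contDiff_Phi.differentiable (by simp) _).hasDerivAt.comp s ((((hasDerivAt_id s).sub_const
        a).div_const τ).sub_const (i : ℝ))).const_mul (p i)).congr_deriv ?_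
      rw [etaI]
      simp only [id]
      field_simp
  rw [← i1, ← intervalIntegral.integral_sub (Continuous.intervalIntegrable (by unfold vs; fun_prop) _ _)
    ((c.const_mul _).intervalIntegrable _ _), ← Real.norm_eq_abs]
  refine (intervalIntegral.norm_integral_le_of_norm_le_const (C := K * R ^ 2 / τ / τ)
    fun s _ => by exact (e4 (s - a)).1.trans (e2 _)).trans ?_
  rw [show a + (i + 1) * τ - (a + i * τ) = τ by ring, abs_of_pos τ0, div_mul_cancel₀ _ τ0.ne']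
  linarith

theorem etaC_bound (m M : ℕ) (S : ℝ) {es : ℝ} (hes : 0 ≤ es) : ∃ C > 0, ∀ Θ ≥ 0, ∀ τ ≥ 1,
    ∀ p : ℕ → ℝ, (∀ i, |p i| ≤ S) → ∀ t, -(C / τ) ≤ etaC m es M Θ τ p t ∧
      etaC m es M Θ τ p t ≤ max es (C / τ) ∧ |deriv (etaC m es M Θ τ p) t| ≤ C / τ ∧
      |deriv (deriv (etaC m es M Θ τ p)) t| ≤ C / τ := by
  obtain ⟨B, hB, h0, h1⟩ := phi_bd
  obtain ⟨C, hC, hI⟩ := etaI_bound m S
  obtain ⟨B', hB'⟩ : ∃ B', B' = M * (4 * (B * |S|)) + 4 * (4 * (es * B) * B) := ⟨_, rfl⟩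
  have B0 : 0 ≤ B' := by rw [hB']; positivity
  refine ⟨M * C + B' + 1, by positivity, fun Θ hΘ τ hτ p hp t => ?_⟩
  have τ0 : 0 < τ := by linarith
  have s1 : |1 / τ| ≤ 1 / τ := (abs_of_pos (by positivity)).le
  have tI : ∀ i, T τ (4 * (B * |S|)) (etaI m τ p i) := fun i => by
    have m0 : (0 : ℝ) ≤ m := m.cast_nonneg
    convert (h1.aff hτ s1 (-i)).mul hτ (T.const hτ (c := p i / ((4 * m + 2) * τ)) (B := |S|) ?_)
      using 2
    · rw [etaI, one_div_mul_eq_div, ← sub_eq_add_neg]; ring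
    · rw [abs_div, abs_of_pos (by positivity : 0 < (4 * m + 2) * τ)]
      exact (div_le_self (abs_nonneg _) (by nlinarith)).trans ((hp i).trans (le_abs_self S))
  have tD : T τ (4 * (4 * (es * B) * B)) (etaD es M Θ τ) := by
    convert ((T.const hτ (abs_of_nonneg hes).le).mul hτ (h0.aff hτ s1 (-M))).mul hτ
      (h0.aff hτ ((abs_neg _).trans_le s1) (M + 2 + Θ)) using 2
    rw [etaD]; ring_nf
  have d := ((T.sum hτ tI M).add tD).deriv t
  rw [← hB'] at d
  have s : |∑ i ∈ Finset.range M, etaI m τ p i t| ≤ M * C / τ :=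
    (Finset.abs_sum_le_sum_abs _ _).trans ((Finset.sum_le_card_nsmul _ _ _ fun i _ =>
      ((hI τ hτ p hp i).1 t).1).trans_eq (by simp [mul_div_assoc]))
  have l1 : M * C / τ ≤ (M * C + B' + 1) / τ := by gcongr; linarith
  have l2 : B' / τ ≤ (M * C + B' + 1) / τ := by
    gcongr; linarith [show 0 ≤ M * C by positivity]
  refine ⟨?_, ?_, d.1.trans l2, d.2.trans l2⟩
  · rw [etaC]; linarith [(abs_le.1 s).1, (etaD_mem (M := M) (Θ := Θ) (τ := τ) hes t).1]
  · rcases le_total t (M * τ) with h | h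
    · rw [etaC, highD τ0 le_rfl (h.trans (by gcongr; linarith)), add_zero]
      exact le_max_of_le_right ((abs_le.1 s).2.trans l1)
    · rw [etaC_dwell τ0 h]
      exact le_max_of_le_left (etaD_mem hes t).2

end Vale.Agent.P225
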