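import Vale.Agent.P225.BumpM
import Vale.Agent.P225.ProfB
import Vale.Agent.P225.Scal
import Vale.Agent.P225.LinODE
import Vale.Agent.P225.CycB

namespace Vale.Agent.P225

open Set Filter NormedSpace
open scoped ContDiff Topology

variable {A ι I : Type} [NormedRing A] [NormedAlgebra ℝ A] [CompleteSpace A] [Fintype ι]
  [Fintype I]

namespace CycAAux

theorem sol_comp {d : ℝ → ℝ} {Λ y v : ℝ → I → ℝ} (h : Sol d Λ y v) (f : ι → I) :
    Sol d (fun s => Λ s ∘ f) (fun s => y s ∘ f) (fun s => v s ∘ f) := fun s =>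
  ⟨hasDerivAt_pi.2 fun i => (h.apply (f i) s).1, hasDerivAt_pi.2 fun i => (h.apply (f i) s).2⟩

theorem vs_lab {L E : Type} [AddCommGroup E] [Module ℝ E] (K : L → E) (lab : ℕ → L) (j₀ : L)
    {m M : ℕ} {es Θ τ : ℝ} {p : ℕ → ℝ} (hτ : 0 < τ) {i : ℕ} (hi : i < M) {t : ℝ} (h1 : i * τ ≤ t)
    (h2 : t ≤ (i + 1) * τ) : vs m (etaC m es M Θ τ p t) • K (labC lab j₀ M τ t) =
      vs m (etaI m τ p i t) • K (lab i) := by
  rw [etaC_ctrl hτ hi h1 h2]
  rcases h2.lt_or_eq with h | h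
  · have : ⌊t / τ⌋₊ = i := (Nat.floor_eq_iff (div_nonneg (le_trans (by positivity) h1) hτ.le)).2
      ⟨(le_div_iff₀ hτ).2 h1, (div_lt_iff₀ hτ).2 h⟩
    rw [labC, this, if_pos hi]
  · rw [etaI_eq_zero hτ (Or.inr (by nlinarith))]
    simp [vs]

theorem exp_close {m M : ℕ} {es Θ τ C : ℝ} {p : ℕ → ℝ} (hτ : 0 < τ) (hC : 0 ≤ C)
    (h : ∀ i t, |Real.exp (2 * etaI m τ p i t) - 1| ≤ C) {t : ℝ} (h1 : 0 ≤ t) (h2 : t ≤ M * τ) :
    |Real.exp (2 * etaC m es M Θ τ p t) - 1| ≤ C := by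
  rcases h2.lt_or_eq with h2 | h2
  · rw [etaC_ctrl (i := ⌊t / τ⌋₊) hτ ((Nat.floor_lt (by positivity)).2 ((div_lt_iff₀ hτ).2 h2))
      ((le_div_iff₀ hτ).1 (Nat.floor_le (by positivity)))
      ((div_le_iff₀ hτ).1 (Nat.lt_floor_add_one _).le)]
    exact h _ _
  · rw [etaC_dwell hτ h2.ge, etaD_eq_zero hτ (Or.inl (by nlinarith))]
    simpa using hC

end CycAAux

open CycAAux CycBAux

theorem ctrl_phase (D : Diag A ι I) {L : Type} (K : L → A) (lab : ℕ → L) (j₀ : L) {m : ℕ}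
    (hm : 0 < m) (M : ℕ) {c₁ c₂ : ℝ} (hc₂ : 0 < c₂) (hc : c₂ ≤ c₁) (α : I → ℝ) (hα : ∀ l, 0 < α l)
    (S : ℝ) {δ : ℝ} (hδ : 0 < δ) :
    ∃ ε > 0, ∃ τ₀ ≥ 1, ∀ τ ≥ τ₀, ∀ (es Θ a : ℝ) (c : ℝ → ℝ) (B : A) (p : ℕ → ℝ) (U V : ℝ → A)
      (y v : ℝ → I → ℝ), Continuous c →
      (∀ s ∈ Icc a (a + M * τ), c₂ ≤ c s ∧ |c s - c₁| ≤ ε) → ‖B‖ ≤ ε → (∀ i, |p i| ≤ S) →
      Sol (fun s => 2 * m * c s) (fun s => D.Lam m (fun l => α l ^ 2 + 2 * m * c₁ * α l)
        (etaC m es M Θ τ p (s - a)) (K (labC lab j₀ M τ (s - a)))) U V →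
      U a = 1 → V a = D.z α + B →
      Sol (fun s => 2 * m * c s) (fun s l => Real.exp (2 * etaC m es M Θ τ p (s - a)) *
        (α l ^ 2 + 2 * m * c₁ * α l)) y v → y a = 1 → v a = α →
      ‖D.z (y (a + M * τ))⁻¹ * U (a + M * τ) -
        wordP (fun i => D.z (fun l => 2 * α l + 2 * m * c₁)⁻¹ * K (lab i)) p M‖ ≤ δ ∧
      ‖D.z (y (a + M * τ))⁻¹ * (V (a + M * τ) -
        D.z (v (a + M * τ) / y (a + M * τ)) * U (a + M * τ))‖ ≤ δ := by
  obtain ⟨C, C0, hC⟩ := etaI_bound m S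
  have m0 : (0 : ℝ) < m := Nat.cast_pos.2 hm
  have c0 : 0 < c₁ := hc₂.trans_le hc
  have d0 : 0 < 2 * m * c₂ := by positivity
  obtain ⟨ε₁, e0, τ₁, -, hb⟩ := bump_all D (fun i => K (lab i)) (fun l => 2 * α l + 2 * m * c₁) d0
    (fun l => by have := hα l; positivity) C S M hδ
  obtain ⟨N, hN⟩ := Finite.exists_le fun l => max (α l) (α l ^ 2 + 2 * m * c₁ * α l)
  obtain ⟨N, N0, hN⟩ : ∃ N > 0, ∀ l, α l ≤ N ∧ α l ^ 2 + 2 * m * c₁ * α l ≤ N :=
    ⟨max N 1, by positivity, fun l => ⟨le_max_of_le_left ((le_max_left _ _).trans (hN l)),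
      le_max_of_le_left ((le_max_right _ _).trans (hN l))⟩⟩
  obtain ⟨ε, ε0, ε1, ε2⟩ : ∃ ε > 0, ε ≤ ε₁ ∧ ε * (2 * m * (1 + 2 * N / (2 * m * c₂))) ≤ ε₁ / 2 :=
    ⟨min ε₁ (ε₁ / 2 / (2 * m * (1 + 2 * N / (2 * m * c₂)))), by positivity, min_le_left _ _,
      (le_div_iff₀ (by positivity)).1 (min_le_right _ _)⟩
  refine ⟨ε, ε0, max 1 (max τ₁ (2 * (C * N) / (2 * m * c₂) / (ε₁ / 2))), le_max_left _ _, ?_⟩
  intro τ ht es Θ a c B p U V y v cc hc hB hp h Ua Va hr ya va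
  have τ1 : 1 ≤ τ := (le_max_left _ _).trans ht
  have τ0 : 0 < τ := zero_lt_one.trans_le τ1
  have τ2 : 2 * (C / τ * N) / (2 * m * c₂) ≤ ε₁ / 2 := by
    have := (div_le_iff₀ (half_pos e0)).1 ((le_max_right _ _).trans ((le_max_right _ _).trans ht))
    rw [show 2 * (C / τ * N) / (2 * m * c₂) = 2 * (C * N) / (2 * m * c₂) / τ by ring,
      div_le_iff₀ τ0]
    linarith
  have cd : Continuous fun s => 2 * m * c s := by fun_prop
  have l0 : ∀ l, 0 < α l ^ 2 + 2 * m * c₁ * α l := fun l => by have := hα l; positivity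
  have hd : ∀ s ∈ Icc a (a + M * τ), 2 * m * c₂ ≤ 2 * m * c s ∧
      |2 * m * c s - 2 * m * c₁| ≤ 2 * m * ε := fun s hs =>
    ⟨by gcongr; exact (hc s hs).1, by
      rw [← mul_sub, abs_mul, abs_of_pos (by positivity : 0 < 2 * (m : ℝ))]
      gcongr; exact (hc s hs).2⟩
  have y0 : ∀ l, 0 < y a l := fun l => by rw [ya]; exact zero_lt_one
  have v0 : ∀ l, 0 ≤ v a l := fun l => by rw [va]; exact (hα l).le
  have hp' := fun l => ((hr.apply l).pos (a := a) (b := a + M * τ) cd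
    (fun s _ => mul_nonneg (Real.exp_pos _).le (l0 l).le) (y0 l) (v0 l)).1
  have yn : ∀ s ∈ Icc a (a + M * τ), ∀ l, 0 < y s l := fun s hs l => (y0 l).trans_le (hp' l s hs).2
  have hs' := fun l => (hr.apply l).settle (a := a) (b := a + M * τ) (e₁ := C / τ * N) cd
    (fun s _ => mul_nonneg (Real.exp_pos _).le (l0 l).le) (y0 l) (v0 l) d0 (hα l).le fun s hs =>
      ⟨(hd s hs).1, (hd s hs).2, by
        rw [← sub_one_mul, abs_mul, abs_of_pos (l0 l)]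
        exact mul_le_mul (exp_close τ0 (by positivity) (fun i t => ((hC τ τ1 p hp i).1 t).2.2)
          (by linarith [hs.1]) (by linarith [hs.2])) (hN l).2 (l0 l).le (by positivity)⟩
  refine hb τ ((le_max_left _ _).trans ((le_max_right _ _).trans ht)) a p
    (fun s => (2 * m * c s) • 1 + v s / y s + v s / y s) (fun i s => vs m (etaI m τ p i (s - a)))
    (fun s => D.z (y s)⁻¹ * U s) (fun s => D.z (y s)⁻¹ * (V s - D.z (v s / y s) * U s)) ?_
    (fun i => ?_) (fun i hi s hs => ?_) (fun s hs l => ?_) (fun i s => ((hC τ τ1 p hp i).1 _).2.1) hp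
    (fun i => (hC τ τ1 p hp i).2 a) ?_ ?_
  · have cq : ContinuousOn (fun s => v s / y s) (Icc a (a + M * τ)) := fun s hs =>
      (hq hr fun l => (yn s hs l).ne').continuousAt.continuousWithinAt
    exact ((cd.smul continuous_const).continuousOn.add cq).add cq
  · have := (contDiff_etaI m τ p i).continuous
    unfold vs
    fun_prop
  · have i1 : (i + 1 : ℝ) * τ ≤ M * τ := by gcongr; exact_mod_cast hi
    have i0 : 0 ≤ i * τ := by positivity
    have yn' : ∀ k, (y s ∘ D.blk) k ≠ 0 := fun k =>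
      (yn s ⟨by linarith [hs.1], by linarith [hs.2]⟩ _).ne'
    refine ⟨hu D h (sol_comp hr D.blk) yn', (hw D h (sol_comp hr D.blk) yn').congr_deriv ?_⟩
    congr 1
    have : D.dg ((fun l => Real.exp (2 * etaC m es M Θ τ p (s - a)) *
        (α l ^ 2 + 2 * m * c₁ * α l)) ∘ D.blk) = Real.exp (2 * etaC m es M Θ τ p (s - a)) •
        D.z fun l => α l ^ 2 + 2 * m * c₁ * α l := (map_smul D.dg _ _)
    rw [this, Diag.Lam, add_sub_cancel_left,
      vs_lab K lab j₀ τ0 hi (by linarith [hs.1]) (by linarith [hs.2]), smul_mul_assoc, mul_smul_comm,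
      ← mul_assoc, ← mul_assoc, ← D.z_comm]
    rfl
  · have q0 : 0 ≤ v s l / y s l := div_nonneg (hp' l s hs).1 (yn s hs l).le
    have k := hs' l s hs
    rw [ya, va, Pi.one_apply, div_one, sub_self, abs_zero, mul_zero, zero_add] at k
    have k2 : (C / τ * N + 2 * m * ε * α l) / (2 * m * c₂) ≤
        (C / τ * N + 2 * m * ε * N) / (2 * m * c₂) := by gcongr; exact (hN l).1
    have k3 := hd s hs
    have k4 : 2 * ((C / τ * N + 2 * m * ε * N) / (2 * m * c₂)) + 2 * m * ε =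
      2 * (C / τ * N) / (2 * m * c₂) + ε * (2 * m * (1 + 2 * N / (2 * m * c₂))) := by ring
    simp only [Pi.add_apply, Pi.smul_apply, Pi.one_apply, smul_eq_mul, mul_one, Pi.div_apply]
    rw [abs_le] at k k3 ⊢
    refine ⟨by linarith, by linarith, by linarith⟩
  · rw [ya, Ua, inv_one, mul_one]
    exact map_one D.dg
  · rw [ya, Ua, Va, va, inv_one, div_one, mul_one, add_sub_cancel_left,
      show D.z 1 = 1 from map_one D.dg, one_mul]
    exact hB.trans ε1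

end Vale.Agent.P225
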