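import Vale.Agent.P225.ProfB
import Vale.Agent.P225.Scal

namespace Vale.Agent.P225

open Set Filter
open scoped ContDiff Topology

namespace CycCAux

theorem vs_zero (m : ℕ) : vs m 0 = 0 := by simp [vs]

theorem vs_nonneg (m : ℕ) {e : ℝ} (he : 0 ≤ e) : 0 ≤ vs m e :=
  sub_nonneg.2 (Real.exp_le_exp.2 ((neg_nonpos.2 (by positivity)).trans (by positivity)))

theorem vs_le (m : ℕ) (e : ℝ) : vs m e ≤ Real.exp (2 * e) := sub_le_self _ (Real.exp_pos _).le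

theorem cont_vs (m : ℕ) : Continuous (vs m) := by unfold vs; fun_prop

theorem small {d R δ : ℝ} (hd : 0 < d) (hδ : 0 < δ) :
    ∃ τ₀ ≥ 1, ∀ τ ≥ τ₀, Real.exp (-(d * τ)) * R ≤ δ := by
  have : Tendsto (fun τ => Real.exp (-(d * τ)) * R) atTop (𝓝 (0 * R)) :=
    (Real.tendsto_exp_neg_atTop_nhds_zero.comp (tendsto_id.const_mul_atTop hd)).mul_const R
  obtain ⟨t, ht⟩ := eventually_atTop.1 (this.eventually (ge_mem_nhds (by simpa using hδ)))
  exact ⟨max 1 t, le_max_left _ _, fun τ h => ht τ ((le_max_right _ _).trans h)⟩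

end CycCAux

open CycCAux

theorem ref_nonneg {m M : ℕ} {es Θ τ lam ν : ℝ} (hes : 0 ≤ es) (hτ : 0 < τ) (p : ℕ → ℝ)
    (h1 : -lam ≤ ν) (h2 : ν ≤ 0) (t : ℝ) :
    0 ≤ Real.exp (2 * etaC m es M Θ τ p t) * lam + vs m (etaD es M Θ τ t) * ν := by
  have hl : 0 ≤ lam := by linarith
  rcases le_total t (M * τ) with h | h
  · rw [etaD_eq_zero hτ (Or.inl (h.trans (by nlinarith))), vs_zero, zero_mul, add_zero]
    positivity
  · rw [etaC_dwell hτ h]
    have a1 := vs_nonneg m (etaD_mem (M := M) (Θ := Θ) (τ := τ) hes t).1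
    have a2 := vs_le m (etaD es M Θ τ t)
    nlinarith [mul_nonneg a1 (by linarith : 0 ≤ lam + ν), mul_nonneg (sub_nonneg.2 a2) hl]

theorem ref_est {m : ℕ} (hm : 0 < m) (M : ℕ) {c₁ c₂ es α ν : ℝ} (hc₂ : 0 < c₂) (hes : 0 ≤ es)
    (hα : 0 < α) (h1 : -(α ^ 2 + 2 * m * c₁ * α) ≤ ν) (h2 : ν ≤ 0) (S κ : ℝ) :
    ∃ C : ℝ, ∀ δ > 0, ∃ ε > 0, ∃ τ₀ ≥ 1, ∀ τ ≥ τ₀, ∀ Θ ≥ 0, ∀ (a : ℝ) (c : ℝ → ℝ) (p : ℕ → ℝ)
      (y v : ℝ → ℝ), Continuous c →
      (∀ s ∈ Icc a (a + (M + 3 + Θ) * τ), c₂ ≤ c s ∧ |c s - c₁| ≤ ε) → (∀ i, |p i| ≤ S) →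
      Sol (fun s => 2 * m * c s) (fun s => Real.exp (2 * etaC m es M Θ τ p (s - a)) *
        (α ^ 2 + 2 * m * c₁ * α) + vs m (etaD es M Θ τ (s - a)) * ν) y v → y a = 1 → v a = α →
      (2 * κ + 2 * m * c₂) * Real.log (y (a + (M + 3 + Θ) * τ)) ≤
        Θ * τ * (Real.exp (2 * es) * (α ^ 2 + 2 * m * c₁ * α) + vs m es * ν + κ ^ 2) + C * τ ∧
      |v (a + (M + 3 + Θ) * τ) / y (a + (M + 3 + Θ) * τ) - α| ≤ δ := by
  obtain ⟨C₀, hC₀, hC⟩ := etaC_bound m M S hes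
  have m0 : (0 : ℝ) < m := Nat.cast_pos.2 hm
  have M0 : (0 : ℝ) ≤ M := Nat.cast_nonneg M
  have d0 : 0 < 2 * m * c₂ := by positivity
  obtain ⟨lam, hlam⟩ : ∃ lam, lam = α ^ 2 + 2 * m * c₁ * α := ⟨_, rfl⟩
  have hl : 0 ≤ lam := by linarith
  obtain ⟨Lm, hLm⟩ : ∃ Lm, Lm = Real.exp (2 * max es C₀) * lam := ⟨_, rfl⟩
  have L0 : 0 ≤ Lm := by rw [hLm]; positivity
  refine ⟨(Lm + κ ^ 2) * (M + 3) + α, fun δ hδ => ?_⟩
  obtain ⟨τ₀, hτ₀, hτ⟩ := small (R := (Lm + lam + 2 * m * 1 * α) / (2 * m * c₂)) d0 (half_pos hδ)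
  refine ⟨min 1 (δ / 2 * c₂ / α), by positivity, τ₀, hτ₀, ?_⟩
  intro τ ht Θ hΘ a c p y v cc hc hp h ya va
  have τ1 : 1 ≤ τ := hτ₀.trans ht
  have τ0 : 0 < τ := zero_lt_one.trans_le τ1
  have Θτ : 0 ≤ Θ * τ := by positivity
  have Mτ : 0 ≤ M * τ := by positivity
  rw [← hlam] at h h1 ⊢
  obtain ⟨Λ, hΛ⟩ : ∃ Λ : ℝ → ℝ, Λ = fun s => Real.exp (2 * etaC m es M Θ τ p (s - a)) * lam +
    vs m (etaD es M Θ τ (s - a)) * ν := ⟨_, rfl⟩
  rw [← hΛ] at h
  have cΛ : Continuous Λ := by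
    have := (contDiff_etaC m es M Θ τ p).continuous
    have := (contDiff_etaD es M Θ τ).continuous
    have := cont_vs m
    rw [hΛ]; fun_prop
  have Λ0 : ∀ s, 0 ≤ Λ s := fun s => by rw [hΛ]; exact ref_nonneg hes τ0 p h1 h2 _
  have Λ1 : ∀ s, Λ s ≤ Lm := fun s => by
    have a1 := mul_nonpos_of_nonneg_of_nonpos
      (vs_nonneg m (etaD_mem (M := M) (Θ := Θ) (τ := τ) hes (s - a)).1) h2
    have a2 := (hC Θ hΘ τ τ1 p hp (s - a)).2.1.trans
      (max_le_max_left es (div_le_self hC₀.le τ1))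
    rw [hΛ, hLm]
    exact (add_le_of_nonpos_right a1).trans (by gcongr)
  have cd : Continuous fun s => 2 * m * c s := by fun_prop
  have hd : ∀ s ∈ Icc a (a + (M + 3 + Θ) * τ), 2 * m * c₂ ≤ 2 * m * c s ∧
      |2 * m * c s - 2 * m * c₁| ≤ 2 * m * min 1 (δ / 2 * c₂ / α) := fun s hs =>
    ⟨by gcongr; exact (hc s hs).1, by
      rw [← mul_sub, abs_mul, abs_of_pos (by positivity : 0 < 2 * (m : ℝ))]
      gcongr; exact (hc s hs).2⟩
  have y0 : 0 < y a := by rw [ya]; exact zero_lt_one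
  have v0 : 0 ≤ v a := by rw [va]; exact hα.le
  constructor
  · have k := h.log_le cd cΛ (fun s _ => Λ0 s) y0 v0 (by nlinarith) (fun s hs => (hd s hs).1) κ
    have ii := cΛ.intervalIntegrable (μ := MeasureTheory.volume)
    have i1 : ∀ s t, s ≤ t → ∫ u in s..t, Λ u ≤ (t - s) * Lm := fun s t hst => by
      simpa using intervalIntegral.integral_mono_on hst (ii s t) (intervalIntegrable_const (c := Lm))
        fun u _ => Λ1 u
    have i2 : ∫ u in (a + (M + 1) * τ)..(a + (M + 1 + Θ) * τ), Λ u =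
        Θ * τ * (Real.exp (2 * es) * lam + vs m es * ν) := by
      rw [intervalIntegral.integral_congr (g := fun _ => Real.exp (2 * es) * lam + vs m es * ν),
        intervalIntegral.integral_const, smul_eq_mul]
      · ring
      · intro u hu
        rw [uIcc_of_le (by linarith)] at hu
        have e : etaD es M Θ τ (u - a) = es := etaD_eq τ0 (by linarith [hu.1]) (by linarith [hu.2])
        simp only [hΛ]
        rw [etaC_dwell τ0 (by linarith [hu.1]), e]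
    rw [← intervalIntegral.integral_add_adjacent_intervals (ii a (a + (M + 1) * τ)) (ii _ _),
      ← intervalIntegral.integral_add_adjacent_intervals (ii (a + (M + 1) * τ) (a + (M + 1 + Θ) * τ))
        (ii _ _), i2, ya, va, Real.log_one] at k
    have j1 := i1 a (a + (M + 1) * τ) (by linarith)
    have j2 := i1 (a + (M + 1 + Θ) * τ) (a + (M + 3 + Θ) * τ) (by linarith)
    have j3 : α ≤ α * τ := le_mul_of_one_le_right hα.le τ1
    linarith
  · have hb : a + (M + 2 + Θ) * τ ∈ Icc a (a + (M + 2 + Θ) * τ) := ⟨by linarith, le_rfl⟩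
    have k1 := h.settle (b := a + (M + 2 + Θ) * τ) (d₁ := 2 * m * c₁) (e₁ := Lm + lam)
      (e₂ := 2 * m * 1) cd (fun s _ => Λ0 s) y0 v0 d0 hα.le (fun s hs => by
        have := hd s ⟨hs.1, by linarith [hs.2]⟩
        refine ⟨this.1, this.2.trans (by gcongr; exact min_le_left _ _), ?_⟩
        rw [← hlam, abs_le]
        constructor <;> linarith [Λ0 s, Λ1 s]) _ hb
    have k2 := (h.pos cd (fun s _ => Λ0 s) y0 v0).1 _ hb
    have k3 := h.settle (a := a + (M + 2 + Θ) * τ) (b := a + (M + 3 + Θ) * τ) (d₁ := 2 * m * c₁)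
      (e₁ := 0) (e₂ := 2 * m * (δ / 2 * c₂ / α)) cd (fun s _ => Λ0 s) (y0.trans_le k2.2) k2.1 d0
      hα.le (fun s hs => by
        have := hd s ⟨by linarith [hs.1], hs.2⟩
        refine ⟨this.1, this.2.trans (by gcongr; exact min_le_right _ _), ?_⟩
        simp only [hΛ]
        rw [etaC_eq_zero τ0 hΘ (Or.inr (by linarith [hs.1])),
          etaD_eq_zero τ0 (Or.inr (by linarith [hs.1])), vs_zero, ← hlam]
        simp) (a + (M + 3 + Θ) * τ) ⟨by linarith, le_rfl⟩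
    rw [ya, va, div_one, sub_self, abs_zero, mul_zero, zero_add] at k1
    rw [show a + (M + 3 + Θ) * τ - (a + (M + 2 + Θ) * τ) = τ by ring,
      show (0 + 2 * m * (δ / 2 * c₂ / α) * α) / (2 * m * c₂) = δ / 2 by field_simp; ring] at k3
    have := (mul_le_mul_of_nonneg_left k1 (Real.exp_pos (-(2 * m * c₂ * τ))).le).trans (hτ τ ht)
    linarith

end Vale.Agent.P225
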