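import Vale.Agent.P225.ODefs

namespace Vale.Agent.P225

open Set Filter NormedSpace
open scoped ContDiff Topology

set_option linter.unusedSectionVars false

variable {A ι I : Type} [NormedRing A] [NormedAlgebra ℝ A] [CompleteSpace A] [Fintype ι]
  [Fintype I]

theorem Diag.cont (D : Diag A ι I) : Continuous D.dg := 
  (AddMonoidHomClass.isometry_of_norm D.dg D.norm_dg).continuous

theorem Diag.cont_z (D : Diag A ι I) : Continuous D.z := 
  D.cont.comp (continuous_pi fun _ => continuous_apply _)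

theorem Diag.z_comm (D : Diag A ι I) (f : I → ℝ) (a : A) : D.z f * a = a * D.z f := 
  (D.cen f a).eq

theorem Diag.z_mul (D : Diag A ι I) (f g : I → ℝ) : D.z (f * g) = D.z f * D.z g := 
  map_mul D.dg (f ∘ D.blk) (g ∘ D.blk)

theorem Diag.norm_z (D : Diag A ι I) (f : I → ℝ) : ‖D.z f‖ ≤ ‖f‖ := by
  rw [Diag.z, D.norm_dg]
  exact (pi_norm_le_iff_of_nonneg (norm_nonneg _)).2 fun i => norm_le_pi_norm f _

theorem Diag.exp_dg (D : Diag A ι I) (f : ι → ℝ) :
    exp (D.dg f) = D.dg fun i => Real.exp (f i) := by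
  let _ : NormedAlgebra ℚ A := .restrictScalars ℚ ℝ A
  rw [← map_exp D.dg D.cont]
  congr 1
  funext i
  rw [Pi.coe_exp, Real.exp_eq_exp_ℝ]

theorem Diag.hasDerivAt (D : Diag A ι I) {f : ℝ → ι → ℝ} {f' : ι → ℝ} {s : ℝ}
    (h : HasDerivAt f f' s) : HasDerivAt (fun t => D.dg (f t)) (D.dg f') s := 
  (⟨D.dg.toLinearMap, D.cont⟩ : (ι → ℝ) →L[ℝ] A).hasFDerivAt.comp_hasDerivAt s h

theorem Diag.decay (D : Diag A ι I) {w r : ℝ → A} {κ : ℝ → ι → ℝ} {a b d₀ ρ : ℝ}
    (hκ : ContinuousOn κ (Icc a b))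
    (hw : ∀ s ∈ Icc a b, HasDerivAt w (r s - D.dg (κ s) * w s) s) (hd : 0 < d₀)
    (h1 : ∀ s ∈ Icc a b, ∀ i, d₀ ≤ κ s i) (h2 : ∀ s ∈ Icc a b, ‖r s‖ ≤ ρ) :
    ∀ s ∈ Icc a b, ‖w s‖ ≤ Real.exp (-(d₀ * (s - a))) * ‖w a‖ + ρ / d₀ := by
  intro s hs
  have hab : a ≤ b := hs.1.trans hs.2
  have hρ : 0 ≤ ρ := (norm_nonneg _).trans (h2 s hs)
  let k : ℝ → ι → ℝ := fun t => κ (projIcc a b hab t)
  have ck : Continuous k := hκ.comp_continuous (by fun_prop) fun t => (projIcc a b hab t).2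
  have ek : ∀ t ∈ Icc a b, k t = κ t := fun t ht => by simp only [k, projIcc_of_mem hab ht]
  have cki : ∀ i, Continuous fun t => k t i := fun i => (continuous_apply i).comp ck
  let g : ℝ → ι → ℝ := fun t i => Real.exp (∫ u in s..t, k u i)
  have dg : ∀ t, HasDerivAt g (g t * k t) t := fun t => hasDerivAt_pi.2 fun i =>
    ((cki i).integral_hasStrictDerivAt s t).hasDerivAt.exp
  have hg : ∀ t ∈ Icc a s, ‖D.dg (g t)‖ ≤ Real.exp (-(d₀ * (s - t))) := by
    intro t ht
    rw [D.norm_dg]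
    refine (pi_norm_le_iff_of_nonneg (Real.exp_pos _).le).2 fun i => ?_
    rw [Real.norm_of_nonneg (Real.exp_pos _).le, Real.exp_le_exp, intervalIntegral.integral_symm,
      neg_le_neg_iff]
    have := intervalIntegral.integral_mono_on (μ := MeasureTheory.volume) ht.2
      (intervalIntegrable_const (c := d₀)) ((cki i).intervalIntegrable t s) fun u hu => by
        rw [ek u ⟨ht.1.trans hu.1, hu.2.trans hs.2⟩]
        exact h1 u ⟨ht.1.trans hu.1, hu.2.trans hs.2⟩ i
    simpa [mul_comm] using this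
  have hF : ∀ t ∈ Icc a s, HasDerivAt (fun t => D.dg (g t) * w t) (D.dg (g t) * r t) t := by
    intro t ht
    have ht' : t ∈ Icc a b := ⟨ht.1, ht.2.trans hs.2⟩
    refine ((D.hasDerivAt (dg t)).mul (hw t ht')).congr_deriv ?_
    rw [ek t ht', map_mul, mul_sub, mul_assoc]
    abel
  have := image_norm_le_of_norm_deriv_right_le_deriv_boundary
    (fun t ht => (hF t ht).continuousAt.continuousWithinAt)
    (fun t ht => (hF t (Ico_subset_Icc_self ht)).hasDerivWithinAt)
    (B := fun t => Real.exp (-(d₀ * (s - a))) * ‖w a‖ + ρ / d₀ * Real.exp (-(d₀ * (s - t))))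
    (B' := fun t => ρ * Real.exp (-(d₀ * (s - t)))) ?_ (fun t => ?_) (fun t ht => ?_) ⟨hs.1, le_rfl⟩
  · have e : g s = 1 := by funext i; simp [g]
    simpa [e] using this
  · refine ((norm_mul_le _ _).trans
      (mul_le_mul_of_nonneg_right (hg a ⟨le_rfl, hs.1⟩) (norm_nonneg _))).trans ?_
    exact le_add_of_nonneg_right (by positivity)
  · refine (((((hasDerivAt_id t).const_sub s).const_mul d₀).neg.exp.const_mul (ρ / d₀)).const_add
      _).congr_deriv ?_
    simp only [id, Pi.neg_apply]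
    field_simp
  · rw [mul_comm ρ]
    exact (norm_mul_le _ _).trans (mul_le_mul (hg t (Ico_subset_Icc_self ht))
      (h2 t ⟨ht.1, ht.2.le.trans hs.2⟩) (norm_nonneg _) (Real.exp_pos _).le)

end Vale.Agent.P225
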