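import Vale.Agent.P225.ODefs

namespace Vale.Agent.P225

open Set Filter
open scoped ContDiff Topology

theorem exists_cfun {c₁ w r : ℝ} (hc : c₁ < 1) (hw : 0 < w) (hr : 0 < r) :
    ∃ c : ℝ → ℝ, ContDiff ℝ ∞ c ∧ (∀ s ≤ 0, c s = 1) ∧
      (∀ s, deriv c s ≤ 0 ∧ c₁ - w ≤ c s ∧ c s ≤ 1) ∧
      ∀ s ≥ 1, c s ≤ c₁ ∧ deriv c s ≤ -(w / 2 * r / (r ^ 2 + s ^ 2)) := by
  have hT : ContDiff ℝ ∞ Real.smoothTransition := Real.smoothTransition.contDiff
  have T0 := Real.smoothTransition.nonneg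
  have T1 := Real.smoothTransition.le_one
  have z := fun s => Real.smoothTransition.zero_of_nonpos (x := s)
  have o := fun s => Real.smoothTransition.one_of_one_le (x := s)
  obtain ⟨c, hc'⟩ : ∃ c : ℝ → ℝ, c = fun s =>
    1 - Real.smoothTransition s * (1 - c₁ + w / 2 * Real.arctan (s / r)) := ⟨_, rfl⟩
  have d : ∀ s, deriv c s = -(deriv Real.smoothTransition s * (1 - c₁ + w / 2 * Real.arctan (s / r)) +
      Real.smoothTransition s * (w / 2 * r / (r ^ 2 + s ^ 2))) := fun s => by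
    rw [hc']
    refine (((hT.differentiable (by simp) s).hasDerivAt.mul (((((hasDerivAt_id s).div_const
      r).arctan.const_mul (w / 2)).const_add (1 - c₁)))).const_sub 1).deriv.trans ?_
    simp only [id]
    field_simp
  have a : ∀ s ≥ 0, 0 ≤ w / 2 * Real.arctan (s / r) ∧ w / 2 * Real.arctan (s / r) ≤ w := fun s hs =>
    ⟨mul_nonneg (by linarith) (Real.arctan_nonneg.2 (div_nonneg hs hr.le)),
      by nlinarith [Real.arctan_lt_pi_div_two (s / r), Real.pi_le_four]⟩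
  have c0 : ∀ s ≤ 0, c s = 1 := fun s hs => by simp [hc', z s hs]
  refine ⟨c, hc' ▸ contDiff_const.sub (hT.mul (contDiff_const.add (contDiff_const.mul
    (Real.contDiff_arctan.comp (contDiff_id.div_const r))))), c0, fun s => ?_, fun s hs => ?_⟩
  · rcases le_total s 0 with hs | hs
    · rw [d, c0 s hs, IsLocalMin.deriv_eq_zero (Eventually.of_forall fun u =>
        (z s hs).trans_le (T0 u)), z s hs]
      exact ⟨by simp, by linarith, le_rfl⟩
    · obtain ⟨a1, a2⟩ := a s hs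
      have p : 0 ≤ 1 - c₁ + w / 2 * Real.arctan (s / r) := by linarith
      refine ⟨?_, ?_, ?_⟩
      · rw [d, neg_nonpos]
        exact add_nonneg (mul_nonneg Real.smoothTransition.monotone.deriv_nonneg p)
          (mul_nonneg (T0 s) (by positivity))
      · simp only [hc']; linarith [mul_le_of_le_one_left p (T1 s)]
      · simp only [hc']; linarith [mul_nonneg (T0 s) p]
  · rw [d, IsLocalMax.deriv_eq_zero (Eventually.of_forall fun u =>
      (T1 u).trans_eq (o s hs).symm), o s hs]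
    simp only [hc', o s hs]
    exact ⟨by linarith [(a s (by linarith)).1], by simp⟩

theorem ToolsAux.anti (m : ℕ) {e es : ℝ} (h0 : 0 ≤ e) (h : e ≤ es) :
    (2 * m + 2) * Real.exp (2 * es) - 2 * Real.exp ((4 * m + 4) * es) ≤
      (2 * m + 2) * Real.exp (2 * e) - 2 * Real.exp ((4 * m + 4) * e) := by
  have m0 : (0 : ℝ) ≤ m := m.cast_nonneg
  have a : 1 ≤ Real.exp (2 * (es - e)) := Real.one_le_exp (by linarith)
  have b := one_add_mul_le_pow (a := Real.exp (2 * (es - e)) - 1) (by linarith) (2 * m + 2)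
  rw [add_sub_cancel, ← Real.exp_nat_mul] at b
  push_cast at b
  have c : Real.exp (2 * e) ≤ Real.exp ((4 * m + 4) * e) := Real.exp_le_exp.2 (by nlinarith)
  rw [show 2 * es = 2 * e + 2 * (es - e) by ring, show (4 * m + 4) * es = (4 * m + 4) * e +
    (2 * m + 2) * (2 * (es - e)) by ring, Real.exp_add, Real.exp_add]
  have p : 0 ≤ (2 * m + 2) * (Real.exp (2 * (es - e)) - 1) := mul_nonneg (by linarith) (by linarith)
  nlinarith [mul_le_mul c (le_sub_iff_add_le'.2 b) p (Real.exp_pos _).le,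
    mul_nonneg (Real.exp_pos (2 * e)).le p]

theorem ric_small {m : ℕ} (hm : 0 < m) {c₁ es : ℝ} (hc : c₁ < 1) (hes : 0 < es)
    (h : 2 * m * c₁ ^ 2 < (2 * m + 2) * Real.exp (2 * es) - 2 * Real.exp ((4 * m + 4) * es)) :
    ∃ ε > 0, ∀ c c' e e' e'' : ℝ, 0 ≤ c → c ≤ c₁ → c' ≤ 0 → -ε ≤ e → e ≤ max es ε → |e'| ≤ ε →
      |e''| ≤ ε → 0 ≤ RH m c c' e e' e'' ∧ 0 ≤ RV m c c' e e' e'' := by
  rcases lt_or_ge c₁ 0 with h0 | h0
  · exact ⟨1, one_pos, fun c _ _ _ _ a b => absurd (a.trans b) (not_le.2 h0)⟩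
  have m1 : (1 : ℝ) ≤ m := by exact_mod_cast hm
  have q : c₁ ^ 2 < 1 := by nlinarith
  obtain ⟨δ, δ0, δ1, δ2⟩ : ∃ δ > 0, 2 * m * c₁ ^ 2 + δ ≤ (2 * m + 2) * Real.exp (2 * es) -
      2 * Real.exp ((4 * m + 4) * es) ∧ c₁ ^ 2 + δ < 1 :=
    ⟨min _ _, lt_min (sub_pos.2 h) (half_pos (sub_pos.2 q)), by
      linarith [min_le_left ((2 * m + 2) * Real.exp (2 * es) - 2 * Real.exp ((4 * m + 4) * es) -
        2 * m * c₁ ^ 2) ((1 - c₁ ^ 2) / 2)], by
      linarith [min_le_right ((2 * m + 2) * Real.exp (2 * es) - 2 * Real.exp ((4 * m + 4) * es) -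
        2 * m * c₁ ^ 2) ((1 - c₁ ^ 2) / 2)]⟩
  have e1 : ∀ᶠ e in 𝓝 (0 : ℝ), 2 * m * c₁ ^ 2 + δ <
      (2 * m + 2) * Real.exp (2 * e) - 2 * Real.exp ((4 * m + 4) * e) :=
    continuousAt_const.eventually_lt (by fun_prop) (by simp; nlinarith)
  have e2 : ∀ᶠ e in 𝓝 (0 : ℝ), c₁ ^ 2 + δ < Real.exp ((4 * m + 4) * e) :=
    continuousAt_const.eventually_lt (by fun_prop) (by simpa)
  have e3 : ∀ᶠ e in 𝓝 (0 : ℝ), (2 * m + 1) * e < δ :=
    ContinuousAt.eventually_lt (by fun_prop) continuousAt_const (by simpa)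
  obtain ⟨ε, ε0, hε⟩ := Metric.nhds_basis_closedBall.eventually_iff.1 (e1.and (e2.and e3))
  simp only [mem_closedBall_zero_iff, Real.norm_eq_abs] at hε
  have e4 := (hε (abs_of_pos ε0).le).2.2
  refine ⟨ε, ε0, fun c c' e e' e'' a1 a2 a3 a4 a5 a6 a7 => ?_⟩
  have b : 2 * m * c₁ ^ 2 + δ ≤ (2 * m + 2) * Real.exp (2 * e) - 2 * Real.exp ((4 * m + 4) * e) ∧
      c₁ ^ 2 + δ ≤ Real.exp ((4 * m + 4) * e) := by
    rcases le_or_gt e ε with g | g
    · exact ⟨(hε (abs_le.2 ⟨a4, g⟩)).1.le, (hε (abs_le.2 ⟨a4, g⟩)).2.1.le⟩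
    · exact ⟨δ1.trans (ToolsAux.anti m (by linarith) ((le_max_iff.1 a5).resolve_right (not_le.2 g))),
        δ2.le.trans (Real.one_le_exp (by nlinarith))⟩
  have b1 : c * c ≤ c₁ ^ 2 := by nlinarith
  have b2 : |c * e'| ≤ ε := by
    rw [abs_mul, abs_of_nonneg a1]; nlinarith [abs_nonneg e']
  rw [abs_le] at b2 a7
  have m2 : (0 : ℝ) ≤ 2 * m := by linarith
  constructor
  · rw [RH]
    nlinarith [mul_le_mul_of_nonneg_left b1 m2, mul_le_mul_of_nonneg_left b2.1 m2]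
  · have : 0 ≤ -e'' - c * c - 2 * m * (c * e') + Real.exp ((4 * m + 4) * e) := by
      nlinarith [mul_le_mul_of_nonneg_left b2.2 m2]
    rw [RV]
    nlinarith [mul_nonneg m2 this]

theorem ric_round (m : ℕ) {c c' : ℝ} (h0 : 0 ≤ c) (h1 : c ≤ 1) (h2 : c' ≤ 0) :
    0 ≤ RH m c c' 0 0 0 ∧ 0 ≤ RV m c c' 0 0 0 ∧ 0 ≤ RR m c' 0 := by
  have m0 : (0 : ℝ) ≤ m := m.cast_nonneg
  have := mul_nonneg m0 (show 0 ≤ 1 - c * c by nlinarith)
  simp only [RH, RV, RR, mul_zero, Real.exp_zero]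
  exact ⟨by linarith, by linarith, by nlinarith⟩

theorem glue {L : Type} (j₀ : L) {s : ℕ → ℝ} (hs : StrictMono s) (ht : Tendsto s atTop atTop)
    (e : ℕ → ℝ → ℝ) (lab : ℕ → ℝ → L) (he : ∀ j, ContDiff ℝ ∞ (e j))
    (h1 : ∀ j, e j =ᶠ[𝓝 (s j)] 0) (h2 : ∀ j, e j =ᶠ[𝓝 (s (j + 1))] 0)
    (hl : ∀ j t, ∀ᶠ u in 𝓝 t, e j u = 0 ∨ lab j u = lab j t) :
    ∃ (η : ℝ → ℝ) (J : ℝ → L), ContDiff ℝ ∞ η ∧ (∀ t ≤ s 0, η t = 0) ∧
      (∀ j, ∀ t ∈ Icc (s j) (s (j + 1)), η t = e j t ∧ (η t = 0 ∨ J t = lab j t)) ∧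
      (∀ t, ∀ᶠ u in 𝓝 t, η u = 0 ∨ J u = J t) ∧
      ∀ t, η =ᶠ[𝓝 t] 0 ∨ ∃ j, t ∈ Icc (s j) (s (j + 1)) ∧ η =ᶠ[𝓝 t] e j := by
  have ex : ∀ t, ∃ j, t < s (j + 1) := fun t =>
    ((ht.comp (tendsto_add_atTop_nat 1)).eventually_gt_atTop t).exists
  obtain ⟨η, J, η0, k⟩ : ∃ (η : ℝ → ℝ) (J : ℝ → L), (∀ t < s 0, η t = 0) ∧
      ∀ j t, s j ≤ t → t < s (j + 1) → η t = e j t ∧ J t = lab j t := by
    refine ⟨fun t => if t < s 0 then 0 else e (Nat.find (ex t)) t,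
      fun t => if t < s 0 then j₀ else lab (Nat.find (ex t)) t, fun t h => if_pos h,
      fun j t a b => ?_⟩
    have : ¬t < s 0 := not_lt.2 ((hs.monotone j.zero_le).trans a)
    simp only [if_neg this]
    rw [(Nat.find_eq_iff (ex t)).2 ⟨b, fun i hi => not_lt.2 ((hs.monotone hi).trans a)⟩]
    exact ⟨rfl, rfl⟩
  have z : ∀ j, η =ᶠ[𝓝 (s j)] 0 := fun j => by
    have a : ∀ᶠ u in 𝓝 (s j), u < s j → η u = 0 := by
      cases j with
      | zero => exact .of_forall η0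
      | succ i =>
        filter_upwards [h2 i, lt_mem_nhds (hs i.lt_succ_self)] with u a b c
        exact (k i u b.le c).1.trans a
    filter_upwards [a, h1 j, gt_mem_nhds (hs j.lt_succ_self)] with u a b c
    exact (lt_or_ge u (s j)).elim a fun d => (k j u d c).1.trans b
  have H : ∀ t, η =ᶠ[𝓝 t] 0 ∨ ∃ j, t ∈ Icc (s j) (s (j + 1)) ∧
      ∀ᶠ u in 𝓝 t, η u = e j u ∧ J u = lab j u := fun t => by
    rcases lt_or_ge t (s 0) with h | h
    · exact .inl ((gt_mem_nhds h).mono η0)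
    obtain ⟨j, a, b⟩ : ∃ j, s j ≤ t ∧ t < s (j + 1) := by
      refine ⟨Nat.find (ex t), ?_, Nat.find_spec (ex t)⟩
      rcases hn : Nat.find (ex t) with _ | i
      · exact h
      · exact not_lt.1 (Nat.find_min (ex t) (hn ▸ i.lt_succ_self))
    rcases a.eq_or_lt with rfl | a
    · exact .inl (z j)
    · refine .inr ⟨j, ⟨a.le, b.le⟩, ?_⟩
      filter_upwards [lt_mem_nhds a, gt_mem_nhds b] with u c d using k j u c.le d
  refine ⟨η, J, contDiff_iff_contDiffAt.2 fun t => ?_, fun t h => ?_, fun j t ⟨a, b⟩ => ?_,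
    fun t => ?_, fun t => (H t).imp id fun ⟨j, a, b⟩ => ⟨j, a, b.mono fun _ => And.left⟩⟩
  · rcases H t with h | ⟨j, -, h⟩
    · exact contDiffAt_const.congr_of_eventuallyEq h
    · exact (he j).contDiffAt.congr_of_eventuallyEq (h.mono fun _ => And.left)
  · exact h.eq_or_lt.elim (fun h => h ▸ (z 0).self_of_nhds) (η0 t)
  · rcases b.eq_or_lt with rfl | b
    · exact ⟨(z _).self_of_nhds.trans (h2 j).self_of_nhds.symm, .inl (z _).self_of_nhds⟩
    · exact (k j t a b).imp id .inr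
  · rcases H t with h | ⟨j, -, h⟩
    · exact h.mono fun _ => .inl
    · filter_upwards [h, hl j t] with u a b
      rwa [a.1, a.2, h.self_of_nhds.2]

theorem growth_seq {τ G x : ℕ → ℝ} {a Θ Gm : ℝ} (hτ : Monotone τ) (h0 : 0 ≤ τ 0) (hΘ : 0 ≤ Θ)
    (hG : ∀ j, 0 ≤ G j ∧ G j ≤ Gm)
    (hx : ∀ j, x (j + 1) ≤ x j + τ j * (a + Θ * (G (j + 1) - G j))) (n : ℕ) :
    x n ≤ x 0 + a * ∑ j ∈ Finset.range n, τ j + Θ * Gm * τ n := by
  have : x n ≤ x 0 + a * ∑ j ∈ Finset.range n, τ j + Θ * G n * τ n := by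
    induction n with
    | zero => simpa using mul_nonneg (mul_nonneg hΘ (hG 0).1) h0
    | succ n ih =>
      rw [Finset.sum_range_succ]
      linarith [hx n, mul_le_mul_of_nonneg_left (hτ n.le_succ) (mul_nonneg hΘ (hG (n + 1)).1)]
  linarith [mul_le_mul_of_nonneg_right (mul_le_mul_of_nonneg_left (hG n).2 hΘ)
    (h0.trans (hτ n.zero_le))]

theorem lam_smooth {A ι I L : Type} [NormedRing A] [NormedAlgebra ℝ A] [Fintype ι]
    (D : Diag A ι I) (m : ℕ) (lam : I → ℝ) (K : L → A) {η : ℝ → ℝ} {J : ℝ → L}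
    (hη : ContDiff ℝ ∞ η) (hl : ∀ t, ∀ᶠ u in 𝓝 t, η u = 0 ∨ J u = J t) :
    ContDiff ℝ ∞ fun s => D.Lam m lam (η s) (K (J s)) := by
  refine contDiff_iff_contDiffAt.2 fun t => ContDiffAt.congr_of_eventuallyEq
    (f := fun s => D.Lam m lam (η s) (K (J t))) (ContDiff.contDiffAt ?_) ((hl t).mono fun u h => ?_)
  · unfold Diag.Lam vs
    fun_prop
  · rcases h with h | h <;> simp [h, Diag.Lam, vs]

end Vale.Agent.P225
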