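import Vale.Agent.P225.LinODE
import Vale.Agent.P225.Decay
import Vale.Agent.P225.Scal
import Vale.Agent.P225.Tools

namespace Vale.Agent.P225

open Set Filter NormedSpace
open scoped ContDiff Topology

variable {A ι I : Type} [NormedRing A] [NormedAlgebra ℝ A] [CompleteSpace A] [Fintype ι]
  [Fintype I] [DecidableEq ι]

/-- the solution before the first cycle -/
theorem init_phase (D : Diag A ι I) {m : ℕ} (hm : 0 < m) {c₁ c₂ : ℝ} (hc₂ : 0 < c₂)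
    (deg α : I → ℝ) (hd : ∀ l, 0 < deg l) (hα : ∀ l, 0 < α l)
    (hαd : ∀ l, α l ^ 2 + 2 * m * c₁ * α l = deg l * (deg l + 2 * m)) {ε : ℝ} (hε : 0 < ε) :
    ∃ w > 0, ∃ a₀ ≥ 1, ∀ a ≥ a₀, ∀ (c : ℝ → ℝ) (Λ U V : ℝ → A), Continuous c → Continuous Λ →
      (∀ s ≤ 0, c s = 1) → (∀ s, c₂ ≤ c s ∧ c s ≤ 1) → (∀ s ≥ 1, |c s - c₁| ≤ w) →
      (∀ s ≤ a, Λ s = D.z fun l => deg l * (deg l + 2 * m)) →
      Sol (fun s => 2 * m * c s) Λ U V → U 0 = 1 → V 0 = D.z deg →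
      (∀ s ≤ 0, U s = D.z fun l => Real.exp (deg l * s)) ∧ (∃ f, U a = D.z f) ∧
        ∃ B, ‖B‖ ≤ ε ∧ V a = (D.z α + B) * U a := by
  have m0 : (0 : ℝ) < 2 * m := by positivity
  have d0 : 0 < 2 * m * c₂ := mul_pos m0 hc₂
  have e1 : ∀ᶠ w in 𝓝 (0 : ℝ), ∀ l, (0 + 2 * m * w * α l) / (2 * m * c₂) < ε / 2 :=
    eventually_all.2 fun l => ContinuousAt.eventually_lt (by fun_prop) continuousAt_const (by simpa)
  obtain ⟨w, w0, hw⟩ := e1.exists_gt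
  obtain ⟨Q, hQ⟩ : ∃ Q : I → ℝ, Q = fun l =>
    |deg l - α l| + (0 + 2 * m * (1 + |c₁|) * α l) / (2 * m * c₂) := ⟨_, rfl⟩
  have e2 : ∀ᶠ a in atTop, ∀ l, Real.exp (-(2 * m * c₂ * (a - 1))) * Q l < ε / 2 :=
    eventually_all.2 fun l => ((Real.tendsto_exp_neg_atTop_nhds_zero.comp ((tendsto_atTop_add_const_right
      _ (-1) tendsto_id).const_mul_atTop d0)).mul_const (Q l)).eventually_lt_const (by simpa)
  obtain ⟨a₀, ha₀⟩ := eventually_atTop.1 (e2.and (eventually_ge_atTop 1))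
  refine ⟨w, w0, a₀, (ha₀ a₀ le_rfl).2, fun a ha c Λ U V cc cΛ c0 c1 c2 hΛ h U0 V0 => ?_⟩
  obtain ⟨e3, a1⟩ := ha₀ a ha
  have cd : Continuous fun s => 2 * m * c s := by fun_prop
  obtain ⟨y, v, hy, y0, v0⟩ := sol_exists (Λ := fun _ l => deg l * (deg l + 2 * m)) cd
    continuous_const 0 (1 : I → ℝ) deg
  let Z : (I → ℝ) →ₐ[ℝ] A := D.dg.comp (AlgHom.pi fun i => Pi.evalAlgHom ℝ _ (D.blk i))
  have hZ : ∀ f, D.z f = Z f := fun _ => rfl
  have u : ∀ s ≤ a, U s = D.z (y s) ∧ V s = D.z (v s) := fun s hs =>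
    h.unique (hy.map Z D.cont_z) cd cΛ (a := min s 0) (b := a) (t := 0)
      ⟨min_le_right _ _, by linarith⟩ (fun r hr => ⟨rfl, hΛ r hr.2⟩) (by rw [U0, y0, map_one])
      (by rw [V0, v0, hZ]) s ⟨min_le_left _ _, hs⟩
  have hx : Sol (fun _ => 2 * m) (fun _ l => deg l * (deg l + 2 * m))
      (fun s l => Real.exp (deg l * s)) fun s l => deg l * Real.exp (deg l * s) := fun s => by
    have k := fun l => ((hasDerivAt_id s).const_mul (deg l)).exp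
    exact ⟨hasDerivAt_pi.2 fun l => (k l).congr_deriv (by simp [mul_comm]), hasDerivAt_pi.2 fun l =>
      ((k l).const_mul (deg l)).congr_deriv (by simp; ring)⟩
  have P := fun l (a b : ℝ) (s : ℝ) (_ : s ∈ Icc a b) =>
    mul_nonneg (hd l).le (add_pos (hd l) m0).le
  have p0 : ∀ l, 0 < y 0 l ∧ 0 ≤ v 0 l := fun l => by simpa [y0, v0] using (hd l).le
  have p : ∀ l, ∀ s ≥ 0, 0 < y s l ∧ 0 ≤ v s l := fun l s hs => by
    have := ((hy.apply l).pos cd (P l 0 s) (p0 l).1 (p0 l).2).1 s ⟨hs, le_rfl⟩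
    exact ⟨(p0 l).1.trans_le this.2, this.1⟩
  have k : ∀ l {e : ℝ} {s : ℝ}, |c s - c₁| ≤ e → 2 * m * c₂ ≤ 2 * m * c s ∧
      |2 * m * c s - 2 * m * c₁| ≤ 2 * m * e ∧
      |deg l * (deg l + 2 * m) - (α l ^ 2 + 2 * m * c₁ * α l)| ≤ 0 := fun l e s hs =>
    ⟨by gcongr; exact (c1 s).1, by rw [← mul_sub, abs_mul, abs_of_pos m0]; gcongr, by simp [hαd]⟩
  refine ⟨fun s hs => ?_, ⟨_, (u a le_rfl).1⟩, D.z (v a / y a - α), (D.norm_z _).trans
    ((pi_norm_le_iff_of_nonneg hε.le).2 fun l => ?_), ?_⟩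
  · rw [(u s (by linarith)).1, (hy.unique hx cd continuous_const (a := s) (b := 0) (t := 0)
      ⟨hs, le_rfl⟩ (fun r hr => ⟨by rw [c0 r hr.2, mul_one], rfl⟩) (by rw [y0]; ext; simp)
      (by rw [v0]; ext; simp) s ⟨le_rfl, hs⟩).1]
  · have s1 := (hy.apply l).settle cd (P l 0 1) (p0 l).1 (p0 l).2 d0 (hα l).le (fun s _ => k l
      ((abs_sub _ _).trans (add_le_add_left (abs_le.2 ⟨by linarith [(c1 s).1], (c1 s).2⟩) |c₁|)))
      1 ⟨zero_le_one, le_rfl⟩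
    have s2 := (hy.apply l).settle cd (P l 1 a) (p l 1 zero_le_one).1 (p l 1 zero_le_one).2 d0
      (hα l).le (fun s hs => k l (c2 s hs.1)) a ⟨a1, le_rfl⟩
    have s3 : |v 1 l / y 1 l - α l| ≤ Q l := s1.trans (by
      simp only [hQ, y0, v0, Pi.one_apply, div_one]
      gcongr
      exact mul_le_of_le_one_left (abs_nonneg _) (Real.exp_le_one_iff.2 (by linarith)))
    have s4 := mul_le_mul_of_nonneg_left s3 (Real.exp_pos (-(2 * m * c₂ * (a - 1)))).le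
    exact s2.trans (by linarith [hw l, e3 l])
  · rw [(u a le_rfl).1, (u a le_rfl).2]
    simp only [hZ]
    rw [← map_add, ← map_mul]
    congr 1
    ext l
    simp [(p l a (by linarith)).1.ne']

theorem GlobAAux.seg {s : ℕ → ℝ} (h : ∀ n, s n + 1 ≤ s (n + 1)) {t : ℝ} (ht : s 0 ≤ t) :
    ∃ n, t ∈ Icc (s n) (s (n + 1)) := by
  by_contra! g
  have : ∀ n : ℕ, s n ≤ t ∧ s 0 + n ≤ s n := fun n => by
    induction n with
    | zero => simpa
    | succ n ih => exact ⟨(not_le.1 fun k => g n ⟨ih.1, k⟩).le, by push_cast; linarith [h n]⟩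
  obtain ⟨n, hn⟩ := exists_nat_gt (t - s 0)
  linarith [this n]

/-- growth of a column along the cycles -/
theorem col_growth (D : Diag A ι I) (g : A) (π : ι → ι)
    (hg : ∀ i, g * D.dg (Pi.single i 1) = D.dg (Pi.single (π i) 1) * g) (S : Set ι)
    (hS : ∀ i ∈ S, π i ∈ S) {lam G : ι → ℝ} {lb : ℝ} (hG : ∀ i, 0 ≤ G i)
    (hl : ∀ i ∈ S, lam (π i) ≤ lb + G (π i) - G i) {κ d₀ : ℝ} (hκ : 0 < κ) (hd : 0 < d₀)
    (hlb : lb < κ ^ 2 + d₀ * κ) (C : ℝ) (M : ℕ) :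
    ∃ Θ ≥ (0 : ℝ), ∃ e > (0 : ℝ), ∀ τ₀ ≥ (1 : ℝ), ∀ (s : ℕ → ℝ) (U : ℝ → A) (W : ℕ → ℝ → A) (y : ℕ → ι → ℝ),
      Continuous U → 0 ≤ s 0 → (∀ j, s (j + 1) = s j + (M + 3 + Θ) * (τ₀ * (1 + e) ^ j)) →
      (∃ f, U (s 0) = D.z f) → (∀ j, ∀ t ∈ Icc (s j) (s (j + 1)), U t = W j t * U (s j) ∧
        ‖W j t‖ ≤ Real.exp (C * ((M + 3 + Θ) * (τ₀ * (1 + e) ^ j)))) →
      (∀ j, W j (s (j + 1)) = D.dg (y j) * g) →
      (∀ j i, 0 < y j i ∧ (2 * κ + d₀) * Real.log (y j i) ≤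
        Θ * (τ₀ * (1 + e) ^ j) * (lam i + κ ^ 2) + C * (τ₀ * (1 + e) ^ j)) →
      ∀ i ∈ S, ∃ C' : ℝ, ∀ t ≥ 0, ‖U t * D.dg (Pi.single i 1)‖ ≤ C' * Real.exp (κ * t) := by
  have k0 : 0 < 2 * κ + d₀ := by linarith
  obtain ⟨N, N0, hN⟩ : ∃ N ≥ 0, ‖g‖ ≤ Real.exp N :=
    ⟨‖g‖, norm_nonneg _, by linarith [Real.add_one_le_exp ‖g‖]⟩
  obtain ⟨Θ, Θ0, hΘ⟩ : ∃ Θ ≥ 0, C + (2 * κ + d₀) * N + 1 ≤ Θ * (κ ^ 2 + d₀ * κ - lb) :=
    ⟨|C + (2 * κ + d₀) * N + 1| / (κ ^ 2 + d₀ * κ - lb), div_nonneg (abs_nonneg _) (by linarith),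
      by rw [div_mul_cancel₀ _ (by linarith)]; exact le_abs_self _⟩
  obtain ⟨K, hK⟩ : ∃ K, K = (2 * κ + d₀) * (C * (M + 3 + Θ)) + Θ * ‖G‖ := ⟨_, rfl⟩
  obtain ⟨e, e0, he⟩ : ∃ e > 0, K * e ≤ 1 := ⟨1 / (|K| + 1), by positivity, by
    rw [mul_one_div, div_le_one (by positivity)]; linarith [le_abs_self K]⟩
  refine ⟨Θ, Θ0, e, e0, fun τ₀ hτ s U W y cU s0 hs ⟨f, hf⟩ hW hy hy' i hi => ?_⟩
  obtain ⟨τ, hτ'⟩ : ∃ τ : ℕ → ℝ, ∀ j, τ₀ * (1 + e) ^ j = τ j := ⟨_, fun _ => rfl⟩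
  simp only [hτ'] at hs hW hy'
  have t1 : ∀ j, 1 ≤ τ j := fun j =>
    hτ' j ▸ one_le_mul_of_one_le_of_one_le hτ (one_le_pow₀ (by linarith))
  have t2 : ∀ j, τ (j + 1) = τ j + e * τ j := fun j => by rw [← hτ', ← hτ']; ring
  have t3 : ∀ n, τ n = τ 0 + e * ∑ j ∈ Finset.range n, τ j ∧
      s n = s 0 + (M + 3 + Θ) * ∑ j ∈ Finset.range n, τ j := fun n => by
    induction n with
    | zero => simp
    | succ n ih => rw [Finset.sum_range_succ, t2, hs]; constructor <;> linarith [ih.1, ih.2]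
  have M0 : (0 : ℝ) ≤ M := M.cast_nonneg
  have s1 : ∀ n, s n + 1 ≤ s (n + 1) := fun n => by rw [hs]; nlinarith [t1 n]
  have iS : ∀ n, π^[n] i ∈ S := fun n => by
    induction n with
    | zero => exact hi
    | succ n ih => rw [Function.iterate_succ_apply']; exact hS _ ih
  obtain ⟨x, x0, hx⟩ : ∃ x : ℕ → ℝ, x 0 = 0 ∧
      ∀ n, x (n + 1) = x n + (Real.log (y n (π^[n + 1] i)) + N) :=
    ⟨fun n => ∑ j ∈ Finset.range n, (Real.log (y j (π^[j + 1] i)) + N), by simp,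
      fun n => Finset.sum_range_succ _ _⟩
  obtain ⟨E, hE⟩ : ∃ E : ι → A, ∀ k, D.dg (Pi.single k 1) = E k := ⟨_, fun _ => rfl⟩
  have E1 : ∀ (z : ι → ℝ) k, D.dg z * E k = z k • E k := fun z k => by
    rw [← hE, ← map_mul, ← map_smul]
    congr 1
    ext l
    by_cases h : l = k <;> simp [h]
  simp only [hE] at hg ⊢
  have u : ∀ n, E (π^[n] i) * (U (s n) * E i) = U (s n) * E i ∧
      ‖U (s n) * E i‖ ≤ Real.exp (x n) * ‖U (s 0) * E i‖ := fun n => by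
    induction n with
    | zero =>
      refine ⟨?_, by simp [x0]⟩
      rw [hf, ← mul_assoc, ← D.z_comm, mul_assoc, Function.iterate_zero_apply]
      nth_rw 1 [← hE]
      rw [E1]; simp
    | succ n ih =>
      have a : E (π^[n + 1] i) * (g * (U (s n) * E i)) = g * (U (s n) * E i) := by
        rw [← mul_assoc, Function.iterate_succ_apply', ← hg, mul_assoc, ih.1]
      have b : U (s (n + 1)) * E i = y n (π^[n + 1] i) • (g * (U (s n) * E i)) := by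
        rw [(hW n _ ⟨by linarith [s1 n], le_rfl⟩).1, hy, mul_assoc, mul_assoc, ← a, ← mul_assoc, E1,
          smul_mul_assoc, a]
      rw [b, mul_smul_comm, a, norm_smul, hx, Real.exp_add, Real.exp_add, Real.exp_log (hy' _ _).1,
        Real.norm_of_nonneg (hy' _ _).1.le]
      refine ⟨rfl, ?_⟩
      have := (hy' n (π^[n + 1] i)).1
      calc _ ≤ y n (π^[n + 1] i) * (Real.exp N * (Real.exp (x n) * ‖U (s 0) * E i‖)) := by
            gcongr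
            exact (norm_mul_le _ _).trans (by gcongr; exact ih.2)
        _ = _ := by ring
  have gs := growth_seq (τ := τ) (G := fun j => G (π^[j] i)) (x := fun j => (2 * κ + d₀) * x j)
    (a := Θ * (lb + κ ^ 2) + C + (2 * κ + d₀) * N) (Θ := Θ) (Gm := ‖G‖)
    (monotone_nat_of_le_succ fun n => by rw [t2]; nlinarith [t1 n]) (by linarith [t1 0]) Θ0
    (fun j => ⟨hG _, (le_abs_self _).trans (norm_le_pi_norm G _)⟩) fun j => by
      have a := hl _ (iS j)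
      rw [← Function.iterate_succ_apply' π] at a
      have b := mul_le_mul_of_nonneg_left a (mul_nonneg Θ0 (zero_le_one.trans (t1 j)))
      have c := le_mul_of_one_le_left (mul_nonneg k0.le N0) (t1 j)
      simp only [hx, Nat.succ_eq_add_one] at b ⊢
      linarith [(hy' j (π^[j + 1] i)).2]
  obtain ⟨C₀, hC⟩ := (isCompact_Icc (a := 0) (b := s 0)).exists_bound_of_continuousOn
    (cU.mul_const (E i)).continuousOn
  refine ⟨max C₀ (Real.exp (K * τ 0 / (2 * κ + d₀)) * ‖U (s 0) * E i‖), fun t ht => ?_⟩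
  rcases le_total t (s 0) with h | h
  · exact (le_max_of_le_left (hC t ⟨ht, h⟩)).trans (le_mul_of_one_le_right
      (le_max_of_le_right (by positivity)) (Real.one_le_exp (by positivity)))
  obtain ⟨n, hn⟩ := GlobAAux.seg s1 h
  have S0 : 0 ≤ ∑ j ∈ Finset.range n, τ j := Finset.sum_nonneg fun j _ => zero_le_one.trans (t1 j)
  have q : C * ((M + 3 + Θ) * τ n) + x n ≤ K * τ 0 / (2 * κ + d₀) + κ * t := by
    rw [← sub_le_iff_le_add, le_div_iff₀ k0]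
    have a := gs n
    have b : Θ * ∑ j ∈ Finset.range n, τ j ≤ t := by
      nlinarith [hn.1, (t3 n).2, mul_nonneg M0 S0]
    have c : K * τ n ≤ K * τ 0 + ∑ j ∈ Finset.range n, τ j := by
      rw [(t3 n).1]; linarith [mul_le_of_le_one_left S0 he]
    have d := mul_le_mul_of_nonneg_left b (mul_pos hκ k0).le
    have r := mul_le_mul_of_nonneg_right hΘ S0
    simp only [x0] at a
    rw [hK] at c ⊢
    linarith
  calc _ ≤ Real.exp (C * ((M + 3 + Θ) * τ n)) * (Real.exp (x n) * ‖U (s 0) * E i‖) := by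
        rw [(hW n t hn).1, mul_assoc]
        exact (norm_mul_le _ _).trans (by gcongr; exacts [(hW n t hn).2, (u n).2])
    _ ≤ Real.exp (K * τ 0 / (2 * κ + d₀)) * ‖U (s 0) * E i‖ * Real.exp (κ * t) := by
        rw [← mul_assoc, ← Real.exp_add, mul_right_comm, ← Real.exp_add]
        gcongr
    _ ≤ _ := by gcongr; exact le_max_right _ _

end Vale.Agent.P225
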