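import Mathlib

namespace Vale.Agent.P225

open Finset

/-- lower bound for the dimension of harmonic polynomials of bidegree `(p + 1, q + 1)` on `ℂ¹⁶` -/
def dd (p q : ℕ) : ℕ :=
  (p + 1 + 15).choose 15 * (q + 1 + 15).choose 15 - (p + 15).choose 15 * (q + 15).choose 15

namespace NumAux

def bn (p k : ℕ) : ℕ := (p + 1).ascFactorial k / k.factorial

theorem bn_eq (p k : ℕ) : (p + k).choose k = bn p k := by
  rw [bn, Nat.ascFactorial_eq_factorial_mul_choose, Nat.mul_div_cancel_left _ k.factorial_pos]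

def f (p : ℕ) : ℕ := (p + 1) * (p + 2) * (p + 3) * (p + 4) * (p + 5) * (p + 6) * (p + 7) * (p + 8)
  * (p + 9) * (p + 10) * (p + 11) * (p + 12) * (p + 13) * (p + 14) * (p + 15) / 1307674368000

theorem f_eq (p : ℕ) : (p + 15).choose 15 = f p := by
  have h : (p + 1).ascFactorial 15 = (p + 1) * (p + 2) * (p + 3) * (p + 4) * (p + 5) * (p + 6) *
      (p + 7) * (p + 8) * (p + 9) * (p + 10) * (p + 11) * (p + 12) * (p + 13) * (p + 14) *
      (p + 15) := by
    rw [Nat.ascFactorial_eq_prod_range]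
    simp only [prod_range_succ, prod_range_zero, one_mul, add_assoc, Nat.reduceAdd]
  have h' : Nat.factorial 15 = 1307674368000 := by norm_num [Nat.factorial]
  rw [bn_eq, bn, f, h, h']

def force {α : Type} (a : ℕ) (k : ℕ → α) : α := Nat.rec (k 0) (fun n _ => k (n + 1)) a

theorem force_eq {α : Type} (a : ℕ) (k : ℕ → α) : force a k = k a := by cases a <;> rfl

def go (l : ℕ) : ℕ → ℕ → ℕ → ℕ → ℕ × ℕ
  | 0, _, a, b => (a, b)
  | n + 1, q, a, b => force (l - 2 - q) fun p => force (q + 1) fun q' => force (p + 1) fun p' =>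
      force (f p' * f q' - f p * f q) fun d => force (a + d) fun a' =>
        force (b + d * (l - 2 - 2 * q) ^ 2) fun b' => go l n q' a' b'

theorem go_eq (l n : ℕ) : ∀ q a b, go l n q a b = (a + ∑ r ∈ Ico q (q + n), dd (l - 2 - r) r,
    b + ∑ r ∈ Ico q (q + n), dd (l - 2 - r) r * (l - 2 - 2 * r) ^ 2) := by
  induction n with
  | zero => intro q a b; simp [go]
  | succ n ih =>
    intro q a b
    simp only [go, force_eq, ih, ← f_eq]
    rw [sum_eq_sum_Ico_succ_bot (show q < q + (n + 1) by omega),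
      sum_eq_sum_Ico_succ_bot (show q < q + (n + 1) by omega), dd,
      show q + 1 + n = q + (n + 1) by omega, add_assoc a, add_assoc b]

def tab : List ℕ := [1330, 1331, 1331, 1332, 1332, 1253, 1189, 1137, 1091, 1050, 1012, 977, 944,
  914, 885, 857, 831, 806, 781, 758, 736, 714, 693, 673, 652, 633, 614, 595, 577, 560, 541, 525,
  508, 492, 476, 460, 443, 428, 413, 398]

def res (l : ℕ) : ℕ × ℕ :=
  force (l / 6 - 1) fun q => force (tab.getD (l - 3990) 0) fun n => go l n q 0 0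

def Q (l : ℕ) : Finset ℕ := Ico (l / 6 - 1) (l / 6 - 1 + tab.getD (l - 3990) 0)

theorem res_eq (l : ℕ) : res l = (∑ r ∈ Q l, dd (l - 2 - r) r,
    ∑ r ∈ Q l, dd (l - 2 - r) r * (l - 2 - 2 * r) ^ 2) := by
  simp only [res, force_eq, go_eq, zero_add, Q]

def ok (l : ℕ) (r : ℕ × ℕ) : Bool :=
  Prod.rec (fun a b => Nat.ble (a * (100250 * (l * (l + 30)))) (7466 * b + a * (100000 * 16073543))) r

theorem h1 : ∀ l ∈ Icc 3990 4029, 2 * (l / 6 - 1 + tab.getD (l - 3990) 0) < l := by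
  decide +kernel

theorem h2 : ∀ l ∈ Icc 3990 4029, ok l (res l) = true := by
  decide +kernel

theorem h3 : bn 4000 31 + bn 3999 31 + bn 2 31 + bn 1 31 < bn 3989 31 + bn 3988 31 +
    ∑ l ∈ Icc 3990 4029, 2 * (res l).1 := by
  decide +kernel

theorem symm1 {n k : ℕ} (a : ℕ) (h1 : n = a + 31) (h2 : k = a) : n.choose k = bn a 31 := by
  rw [← bn_eq, h1, h2, Nat.choose_symm_add]

end NumAux

theorem num_check : ∃ Q : ℕ → Finset ℕ,
    (∀ l ∈ Icc 3990 4029, (∀ q ∈ Q l, 2 * q + 2 < l) ∧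
      ∑ q ∈ Q l, dd (l - 2 - q) q * (100250 * (l * (l + 30))) ≤
        ∑ q ∈ Q l, dd (l - 2 - q) q * (7466 * (l - 2 - 2 * q) ^ 2 + 100000 * 16073543)) ∧
    (32 + 4000 - 1).choose 4000 + (32 + 4000 - 2).choose (4000 - 1) + (2 + 31).choose 31
        + (1 + 31).choose 31 < (3989 + 31).choose 31 + (3988 + 31).choose 31 +
      ∑ l ∈ Icc 3990 4029, ∑ q ∈ Q l, 2 * dd (l - 2 - q) q := by
  refine ⟨NumAux.Q, fun l hl => ⟨fun q hq => ?_, ?_⟩, ?_⟩
  · have := NumAux.h1 l hl
    have := (mem_Ico.1 hq).2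
    omega
  · have := NumAux.h2 l hl
    rw [NumAux.res_eq] at this
    simp only [mul_add, sum_add_distrib, mul_left_comm _ 7466, ← mul_sum, ← sum_mul]
    simpa only [mul_add] using Nat.le_of_ble_eq_true this
  · rw [NumAux.symm1 (n := 32 + 4000 - 1) (k := 4000) 4000 (by norm_num) rfl,
      NumAux.symm1 (n := 32 + 4000 - 2) (k := 4000 - 1) 3999 (by norm_num) (by norm_num),
      NumAux.bn_eq 2 31, NumAux.bn_eq 1 31, NumAux.bn_eq 3989 31, NumAux.bn_eq 3988 31]
    have h : ∀ l, ∑ q ∈ NumAux.Q l, 2 * dd (l - 2 - q) q = 2 * (NumAux.res l).1 := fun l => by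
      rw [NumAux.res_eq, mul_sum]
    rw [sum_congr rfl fun l _ => h l]
    exact NumAux.h3

theorem exp_half_log (n : ℕ) :
    Real.exp (2 * n * (Real.log (401 / 400) / 2)) = (401 / 400 : ℝ) ^ n := by
  rw [show (2 * n * (Real.log (401 / 400) / 2) : ℝ) = n * Real.log (401 / 400) by ring,
    Real.exp_nat_mul, Real.exp_log (by norm_num)]

theorem num_ric : 2 * (15 : ℕ) * (998559 / 1000000 : ℝ) ^ 2 <
    (2 * (15 : ℕ) + 2) * Real.exp (2 * (Real.log (401 / 400) / 2))
      - 2 * Real.exp ((4 * (15 : ℕ) + 4) * (Real.log (401 / 400) / 2)) := by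
  have h1 := exp_half_log 1
  have h2 := exp_half_log 32
  norm_num at h1 h2 ⊢
  rw [h1, h2]
  norm_num

theorem num_vs : (7466 / 100000 : ℝ) ≤ Real.exp (2 * (Real.log (401 / 400) / 2))
    - Real.exp (-(4 * (15 : ℕ) * (Real.log (401 / 400) / 2))) := by
  have h1 := exp_half_log 1
  have h2 := exp_half_log 30
  rw [Real.exp_neg]
  norm_num at h1 h2 ⊢
  rw [h1, h2]
  norm_num

end Vale.Agent.P225
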