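import Mathlib

/-! Second order linear equations in a Banach algebra with a diagonal subalgebra, and the profile
functions of one control cycle. -/

namespace Vale.Agent.P225

open NormedSpace

/-- Ricci curvature in the horizontal, vertical and radial directions -/
noncomputable def RH (m : ℕ) (c c' e e' e'' : ℝ) : ℝ :=
  -c' + e'' - 2 * m * c * (c - e') + (2 * m + 2) * Real.exp (2 * e) - 2 * Real.exp ((4 * m + 4) * e)

noncomputable def RV (m : ℕ) (c c' e e' e'' : ℝ) : ℝ :=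
  -c' - 2 * m * e'' - 2 * m * c * (c + 2 * m * e') + 2 * m * Real.exp ((4 * m + 4) * e)

noncomputable def RR (m : ℕ) (c' e' : ℝ) : ℝ := -(2 * m + 1) * (c' + 2 * m * e' ^ 2)

/-- the coefficient of the vertical part of the Laplacian -/
noncomputable def vs (m : ℕ) (e : ℝ) : ℝ := Real.exp (2 * e) - Real.exp (-(4 * m * e))

/-- `U'' + d U' = Λ U` with `V = U'` -/
def Sol {A : Type} [NormedRing A] [NormedAlgebra ℝ A] (d : ℝ → ℝ) (Λ U V : ℝ → A) : Prop :=
  ∀ s, HasDerivAt U (V s) s ∧ HasDerivAt V (Λ s * U s - d s • V s) s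

/-- diagonal elements, block scalars are central -/
structure Diag (A ι I : Type) [NormedRing A] [NormedAlgebra ℝ A] [Fintype ι] where
  dg : (ι → ℝ) →ₐ[ℝ] A
  blk : ι → I
  norm_dg : ∀ d, ‖dg d‖ = ‖d‖
  cen : ∀ (z : I → ℝ) (a : A), Commute (dg (z ∘ blk)) a

variable {A ι I : Type} [NormedRing A] [NormedAlgebra ℝ A] [Fintype ι]

/-- block scalars -/
def Diag.z (D : Diag A ι I) (f : I → ℝ) : A := D.dg (f ∘ D.blk)

/-- time ordered product of exponentials -/
noncomputable def wordP (Y : ℕ → A) (p : ℕ → ℝ) : ℕ → A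
  | 0 => 1
  | M + 1 => exp (p M • Y M) * wordP Y p M

/-- the elements `β K j` together with the block scalars generate `A` as a Lie algebra -/
def Diag.Gen (D : Diag A ι I) {L : Type} (K : L → A) : Prop :=
  ∀ β : I → ℝ, (∀ l, β l ≠ 0) → ∀ W : Submodule ℝ A, (∀ x ∈ W, ∀ y ∈ W, x * y - y * x ∈ W) →
    (∀ j, D.z β * K j ∈ W) → (∀ f, D.z f ∈ W) → W = ⊤

/-- the coefficient of the equation for harmonic functions -/
noncomputable def Diag.Lam (D : Diag A ι I) (m : ℕ) (lam : I → ℝ) (e : ℝ) (k : A) : A :=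
  Real.exp (2 * e) • D.z lam + vs m e • k

/-- smooth step: `0` for `r ≤ 1/4`, `1` for `3/4 ≤ r` -/
noncomputable def Phi (r : ℝ) : ℝ := Real.smoothTransition (2 * r - 1 / 2)

/-- the `i`-th control bump -/
noncomputable def etaI (m : ℕ) (τ : ℝ) (p : ℕ → ℝ) (i : ℕ) (t : ℝ) : ℝ :=
  p i * deriv Phi (t / τ - i) / ((4 * m + 2) * τ)

/-- travel to the Berger sphere, dwell, travel back -/
noncomputable def etaD (es : ℝ) (M : ℕ) (Θ τ t : ℝ) : ℝ :=
  es * Phi (t / τ - M) * Phi (M + 2 + Θ - t / τ)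

/-- the profile of a cycle of length `(M + 3 + Θ) τ` -/
noncomputable def etaC (m : ℕ) (es : ℝ) (M : ℕ) (Θ τ : ℝ) (p : ℕ → ℝ) (t : ℝ) : ℝ :=
  ∑ i ∈ Finset.range M, etaI m τ p i t + etaD es M Θ τ t

/-- the schedule of complex structures in a cycle -/
noncomputable def labC {L : Type} (lab : ℕ → L) (j0 : L) (M : ℕ) (τ t : ℝ) : L :=
  if ⌊t / τ⌋₊ < M then lab ⌊t / τ⌋₊ else j0

end Vale.Agent.P225
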