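import Vale.Agent.P225.ODefs

namespace Vale.Agent.P225

open Set Filter
open scoped ContDiff Topology

variable {m M : ℕ} {es Θ τ : ℝ} {p : ℕ → ℝ}

namespace ProfAux

theorem contDiff_Phi : ContDiff ℝ ∞ Phi :=
  Real.smoothTransition.contDiff.comp (by fun_prop)

theorem contDiff_dPhi : ContDiff ℝ ∞ (deriv Phi) := (contDiff_infty_iff_deriv.1 contDiff_Phi).2

theorem Phi_zero {r : ℝ} (h : r ≤ 1 / 4) : Phi r = 0 :=
  Real.smoothTransition.zero_of_nonpos (by linarith)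

theorem Phi_one {r : ℝ} (h : 3 / 4 ≤ r) : Phi r = 1 :=
  Real.smoothTransition.one_of_one_le (by linarith)

theorem Phi_nonneg (r : ℝ) : 0 ≤ Phi r := Real.smoothTransition.nonneg _

theorem Phi_le (r : ℝ) : Phi r ≤ 1 := Real.smoothTransition.le_one _

theorem dPhi_zero {r : ℝ} (h : r ≤ 1 / 4 ∨ 3 / 4 ≤ r) : deriv Phi r = 0 := by
  rcases h with h | h
  · exact IsLocalMin.deriv_eq_zero (Eventually.of_forall fun s => (Phi_zero h).trans_le (Phi_nonneg s))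
  · exact IsLocalMax.deriv_eq_zero (Eventually.of_forall fun s => (Phi_le s).trans_eq (Phi_one h).symm)

theorem vs_zero (m : ℕ) : vs m 0 = 0 := by simp [vs]

end ProfAux

open ProfAux

theorem contDiff_etaI (m : ℕ) (τ : ℝ) (p : ℕ → ℝ) (i : ℕ) : ContDiff ℝ ∞ (etaI m τ p i) :=
  (contDiff_const.mul (contDiff_dPhi.comp ((contDiff_id.div_const τ).sub contDiff_const))).div_const _

theorem contDiff_etaD (es : ℝ) (M : ℕ) (Θ τ : ℝ) : ContDiff ℝ ∞ (etaD es M Θ τ) :=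
  (contDiff_const.mul (contDiff_Phi.comp ((contDiff_id.div_const τ).sub contDiff_const))).mul
    (contDiff_Phi.comp (contDiff_const.sub (contDiff_id.div_const τ)))

theorem contDiff_etaC (m : ℕ) (es : ℝ) (M : ℕ) (Θ τ : ℝ) (p : ℕ → ℝ) :
    ContDiff ℝ ∞ (etaC m es M Θ τ p) :=
  (ContDiff.sum fun i _ => contDiff_etaI m τ p i).add (contDiff_etaD es M Θ τ)

theorem cont_etaI (m : ℕ) (τ : ℝ) (i : ℕ) :
    Continuous fun q : (ℕ → ℝ) × ℝ => etaI m τ q.1 i q.2 := by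
  have := contDiff_dPhi.continuous
  unfold etaI
  fun_prop

theorem cont_etaC (m : ℕ) (es : ℝ) (M : ℕ) (Θ τ : ℝ) :
    Continuous fun q : (ℕ → ℝ) × ℝ => etaC m es M Θ τ q.1 q.2 :=
  (continuous_finsetSum _ fun i _ => cont_etaI m τ i).add
    ((contDiff_etaD es M Θ τ).continuous.comp continuous_snd)

theorem etaI_eq_zero (hτ : 0 < τ) {i : ℕ} {t : ℝ}
    (ht : t ≤ (i + 1 / 4) * τ ∨ (i + 3 / 4) * τ ≤ t) : etaI m τ p i t = 0 := by
  rw [← div_le_iff₀ hτ, ← le_div_iff₀ hτ] at ht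
  rw [etaI, dPhi_zero (ht.imp (fun h => by linarith) fun h => by linarith), mul_zero, zero_div]

theorem etaD_eq_zero (hτ : 0 < τ) {t : ℝ}
    (ht : t ≤ (M + 1 / 4) * τ ∨ (M + Θ + 7 / 4) * τ ≤ t) : etaD es M Θ τ t = 0 := by
  rw [← div_le_iff₀ hτ, ← le_div_iff₀ hτ] at ht
  rcases ht with h | h
  · rw [etaD, Phi_zero (r := t / τ - M) (by linarith), mul_zero, zero_mul]
  · rw [etaD, Phi_zero (r := M + 2 + Θ - t / τ) (by linarith), mul_zero]

theorem etaD_eq (hτ : 0 < τ) {t : ℝ} (h1 : (M + 1) * τ ≤ t) (h2 : t ≤ (M + 1 + Θ) * τ) :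
    etaD es M Θ τ t = es := by
  rw [← le_div_iff₀ hτ] at h1
  rw [← div_le_iff₀ hτ] at h2
  rw [etaD, Phi_one (by linarith), Phi_one (by linarith), mul_one, mul_one]

theorem etaD_mem (hes : 0 ≤ es) (t : ℝ) : etaD es M Θ τ t ∈ Icc 0 es :=
  ⟨mul_nonneg (mul_nonneg hes (Phi_nonneg _)) (Phi_nonneg _),
    (mul_le_of_le_one_right (mul_nonneg hes (Phi_nonneg _)) (Phi_le _)).trans
      (mul_le_of_le_one_right hes (Phi_le _))⟩

theorem ProfAux.low (hτ : 0 < τ) {j n : ℕ} (h : j < n) {t : ℝ} (ht : (n - 1 / 4) * τ ≤ t) :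
    etaI m τ p j t = 0 := by
  have : (j : ℝ) + 1 ≤ n := by exact_mod_cast h
  exact etaI_eq_zero hτ (.inr (le_trans (by gcongr; linarith) ht))

theorem ProfAux.high (hτ : 0 < τ) {j n : ℕ} (h : n ≤ j) {t : ℝ} (ht : t ≤ (n + 1 / 4) * τ) :
    etaI m τ p j t = 0 :=
  etaI_eq_zero hτ (.inl (ht.trans (by gcongr)))

theorem ProfAux.highD (hτ : 0 < τ) {n : ℕ} (h : n ≤ M) {t : ℝ} (ht : t ≤ (n + 1 / 4) * τ) :
    etaD es M Θ τ t = 0 :=
  etaD_eq_zero hτ (.inl (ht.trans (by gcongr)))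

theorem ProfAux.other (hτ : 0 < τ) {i j : ℕ} (h : j ≠ i) {t : ℝ} (h1 : i = 0 ∨ i * τ ≤ t)
    (h2 : t ≤ (i + 1) * τ) : etaI m τ p j t = 0 := by
  rcases lt_or_gt_of_ne h with h | h
  · exact low hτ h (le_trans (by gcongr; linarith) (h1.resolve_left (by omega)))
  · exact high hτ (n := i + 1) h (h2.trans (by push_cast; gcongr ?_ * _; linarith))

theorem ProfAux.ctrl (hτ : 0 < τ) {i : ℕ} (hi : i < M) {t : ℝ} (h1 : i = 0 ∨ i * τ ≤ t)
    (h2 : t ≤ (i + 1) * τ) : etaC m es M Θ τ p t = etaI m τ p i t ∧ etaD es M Θ τ t = 0 := by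
  have e : etaD es M Θ τ t = 0 :=
    highD hτ (n := i + 1) hi (h2.trans (by push_cast; gcongr ?_ * _; linarith))
  refine ⟨?_, e⟩
  rw [etaC, e, add_zero, Finset.sum_eq_single_of_mem i (Finset.mem_range.2 hi)
    fun j _ h => other hτ h h1 h2]

theorem etaC_ctrl (hτ : 0 < τ) {i : ℕ} (hi : i < M) {t : ℝ} (h1 : i * τ ≤ t)
    (h2 : t ≤ (i + 1) * τ) : etaC m es M Θ τ p t = etaI m τ p i t :=
  (ctrl hτ hi (.inr h1) h2).1

theorem etaC_dwell (hτ : 0 < τ) {t : ℝ} (h : M * τ ≤ t) :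
    etaC m es M Θ τ p t = etaD es M Θ τ t := by
  rw [etaC, Finset.sum_eq_zero fun j hj => low hτ (Finset.mem_range.1 hj)
    (le_trans (by gcongr; linarith) h), zero_add]

theorem ProfAux.near (hτ : 0 < τ) {n : ℕ} (hn : n ≤ M) {t : ℝ} (h1 : n = 0 ∨ (n - 1 / 4) * τ ≤ t)
    (h2 : t ≤ (n + 1 / 4) * τ) : etaC m es M Θ τ p t = 0 := by
  rw [etaC, highD hτ hn h2, add_zero]
  refine Finset.sum_eq_zero fun j _ => ?_
  rcases lt_or_ge j n with h | h
  · exact low hτ h (h1.resolve_left (by omega))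
  · exact high hτ h h2

theorem etaC_eq_zero (hτ : 0 < τ) (hΘ : 0 ≤ Θ) {t : ℝ}
    (ht : t ≤ τ / 4 ∨ (M + 2 + Θ) * τ ≤ t) : etaC m es M Θ τ p t = 0 := by
  rcases ht with h | h
  · exact near hτ (Nat.zero_le M) (.inl rfl) (by push_cast; linarith)
  · rw [etaC_dwell hτ (le_trans (by gcongr; linarith) h),
      etaD_eq_zero hτ (.inr (le_trans (by gcongr ?_ * _; linarith) h))]

theorem labC_loc {L : Type} (lab : ℕ → L) (j₀ : L) (hτ : 0 < τ) (t : ℝ) :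
    ∀ᶠ s in 𝓝 t, etaC m es M Θ τ p s = 0 ∨ labC lab j₀ M τ s = labC lab j₀ M τ t := by
  have c : Tendsto (fun s => s / τ) (𝓝 t) (𝓝 (t / τ)) := (continuous_id.div_const τ).tendsto t
  rcases lt_or_ge (M : ℝ) (t / τ) with h | h
  · filter_upwards [c.eventually (lt_mem_nhds h)] with s hs
    refine .inr ?_
    rw [labC, labC, if_neg (not_lt.2 (Nat.le_floor hs.le)), if_neg (not_lt.2 (Nat.le_floor h.le))]
  obtain ⟨n, hn⟩ : ∃ n, n = ⌊t / τ⌋₊ := ⟨_, rfl⟩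
  have n1 : t / τ < n + 1 := hn ▸ Nat.lt_floor_add_one _
  rcases lt_or_ge (n : ℝ) (t / τ) with h1 | h1
  · filter_upwards [c.eventually (lt_mem_nhds h1), c.eventually (gt_mem_nhds n1)] with s a b
    refine .inr ?_
    rw [labC, labC, ← hn, (Nat.floor_eq_iff (n.cast_nonneg.trans a.le)).2 ⟨a.le, b⟩]
  have nM : n ≤ M := hn ▸ Nat.floor_le_of_le h
  have b := c.eventually (gt_mem_nhds (show t / τ < n + 1 / 4 by linarith))
  rcases Nat.eq_zero_or_pos n with h0 | h0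
  · filter_upwards [b] with s hs
    exact .inl (near hτ nM (.inl h0) ((div_le_iff₀ hτ).1 hs.le))
  · have : (n : ℝ) ≤ t / τ := (Nat.le_floor_iff' h0.ne').1 hn.le
    filter_upwards [b, c.eventually (lt_mem_nhds (show n - 1 / 4 < t / τ by linarith))] with s a a'
    exact .inl (near hτ nM (.inr ((le_div_iff₀ hτ).1 a'.le)) ((div_le_iff₀ hτ).1 a.le))

theorem vs_labC {L E : Type} [AddCommGroup E] [Module ℝ E] (K : L → E) (lab : ℕ → L) (j₀ : L)
    (hτ : 0 < τ) (t : ℝ) :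
    vs m (etaC m es M Θ τ p t) • K (labC lab j₀ M τ t) =
      ∑ i ∈ Finset.range M, vs m (etaI m τ p i t) • K (lab i) + vs m (etaD es M Θ τ t) • K j₀ := by
  obtain ⟨n, hn⟩ : ∃ n, n = ⌊t / τ⌋₊ := ⟨_, rfl⟩
  have n1 : t ≤ (n + 1) * τ := (div_le_iff₀ hτ).1 (hn ▸ Nat.lt_floor_add_one _).le
  have n0 : n = 0 ∨ n * τ ≤ t := (Nat.eq_zero_or_pos n).imp id fun h =>
    (le_div_iff₀ hτ).1 ((Nat.le_floor_iff' h.ne').1 hn.le)
  rw [labC, ← hn]
  split_ifs with h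
  · obtain ⟨e1, e2⟩ := ctrl (m := m) (es := es) (Θ := Θ) (p := p) hτ h n0 n1
    rw [e1, e2, vs_zero, zero_smul, add_zero, Finset.sum_eq_single_of_mem n (Finset.mem_range.2 h)
      fun j _ h => by rw [other hτ h n0 n1, vs_zero, zero_smul]]
  · have z : ∀ j ∈ Finset.range M, etaI m τ p j t = 0 := fun j hj =>
      other hτ (by have := Finset.mem_range.1 hj; omega) n0 n1
    rw [etaC, Finset.sum_eq_zero z, zero_add,
      Finset.sum_eq_zero fun j hj => by rw [z j hj, vs_zero, zero_smul], zero_add]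

end Vale.Agent.P225
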